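import Mathlib

/-! Averaging over random bits on wheels. -/

namespace Vale.Agent.P333

open Finset

variable {W : Type} [Fintype W] [DecidableEq W]

/-- Flipping by a mask is a bijection of assignments. -/
def flipEquiv (m : W → Bool) : (W → Bool) ≃ (W → Bool) where
  toFun s := fun w => xor (s w) (m w)
  invFun s := fun w => xor (s w) (m w)
  left_inv s := by funext w; simp
  right_inv s := by funext w; simp

lemma flip_sum (m : W → Bool) (f : (W → Bool) → ℕ) :
    ∑ s : W → Bool, f (fun w => xor (s w) (m w)) = ∑ s : W → Bool, f s :=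
  Equiv.sum_comp (flipEquiv m) f

lemma card_assign : Fintype.card (W → Bool) = 2 ^ Fintype.card W := by
  simp

lemma avg_one (w : W) (g : Bool → ℕ) :
    2 * ∑ s : W → Bool, g (s w) = 2 ^ Fintype.card W * (g false + g true) := by
  have h1 := flip_sum (W := W) (fun w' => if w' = w then true else false) (fun s => g (s w))
  simp only [if_true, Bool.xor_true] at h1
  have h2 : ∑ s : W → Bool, (g (s w) + g (!s w)) = 2 * ∑ s : W → Bool, g (s w) := by
    rw [sum_add_distrib, h1]; ring
  have h3 : ∀ s : W → Bool, g (s w) + g (!s w) = g false + g true := by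
    intro s; cases s w <;> simp [add_comm]
  rw [← h2]
  simp only [h3, sum_const, card_univ, card_assign, smul_eq_mul]

lemma avg_three (w0 w1 w2 : W) (h01 : w0 ≠ w1) (h02 : w0 ≠ w2) (h12 : w1 ≠ w2)
    (g : Bool → Bool → Bool → ℕ) :
    8 * ∑ s : W → Bool, g (s w0) (s w1) (s w2) =
      2 ^ Fintype.card W * ∑ a : Bool, ∑ b : Bool, ∑ c : Bool, g a b c := by
  have key : ∀ a b c : Bool, ∑ s : W → Bool, g (xor (s w0) a) (xor (s w1) b) (xor (s w2) c) =
      ∑ s : W → Bool, g (s w0) (s w1) (s w2) := by
    intro a b c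
    have := flip_sum (W := W)
      (fun w => if w = w0 then a else if w = w1 then b else if w = w2 then c else false)
      (fun s => g (s w0) (s w1) (s w2))
    simpa [h01.symm, h02.symm, h12.symm] using this
  have h8 : 8 * ∑ s : W → Bool, g (s w0) (s w1) (s w2) =
      ∑ a : Bool, ∑ b : Bool, ∑ c : Bool, ∑ s : W → Bool,
        g (xor (s w0) a) (xor (s w1) b) (xor (s w2) c) := by
    simp only [key, sum_const, card_univ, Fintype.card_bool, smul_eq_mul]
    ring
  rw [h8]
  have h9 : ∑ a : Bool, ∑ b : Bool, ∑ c : Bool, ∑ s : W → Bool,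
        g (xor (s w0) a) (xor (s w1) b) (xor (s w2) c) =
      ∑ s : W → Bool, ∑ a : Bool, ∑ b : Bool, ∑ c : Bool,
        g (xor (s w0) a) (xor (s w1) b) (xor (s w2) c) := by
    simp only [Fintype.sum_bool]
    simp only [sum_add_distrib]
  rw [h9]
  have h10 : ∀ s : W → Bool, ∑ a : Bool, ∑ b : Bool, ∑ c : Bool,
        g (xor (s w0) a) (xor (s w1) b) (xor (s w2) c) =
      ∑ a : Bool, ∑ b : Bool, ∑ c : Bool, g a b c := by
    intro s
    simp only [Fintype.sum_bool]
    cases s w0 <;> cases s w1 <;> cases s w2 <;> simp <;> ring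
  simp only [h10, sum_const, card_univ, card_assign, smul_eq_mul]

end Vale.Agent.P333
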