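import Vale.Agent.P333.Defs

set_option linter.unusedSectionVars false

namespace Vale.Agent.P333

open Finset

variable {Chord Eqn Wheel : Type}

open Classical in
/-- Number of consecutive pairs of a list that do not follow the cyclic successor. -/
noncomputable def Hybrid.badJoins (H : Hybrid Chord Eqn Wheel) : List (Node Chord Eqn) → ℕ
  | [] => 0
  | [_] => 0
  | a :: b :: L => (if H.succ a = b then 0 else 1) + Hybrid.badJoins H (b :: L)

lemma Hybrid.badJoins_snoc (H : Hybrid Chord Eqn Wheel) (A : List (Node Chord Eqn))
    (b : Node Chord Eqn) : H.badJoins (A ++ [b]) ≤ H.badJoins A + 1 := by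
  induction A with
  | nil => simp [Hybrid.badJoins]
  | cons a A ih =>
    cases A with
    | nil => simp only [List.cons_append, List.nil_append, Hybrid.badJoins]; split_ifs <;> omega
    | cons a' A =>
      simp only [List.cons_append, Hybrid.badJoins] at ih ⊢
      omega

lemma Hybrid.badJoins_append (H : Hybrid Chord Eqn Wheel) (A B : List (Node Chord Eqn)) :
    H.badJoins (A ++ B) ≤ H.badJoins A + H.badJoins B + 1 := by
  induction A with
  | nil =>
    simp only [List.nil_append, Hybrid.badJoins]
    omega
  | cons a A ih =>
    cases A with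
    | nil =>
      cases B with
      | nil => simp [Hybrid.badJoins]
      | cons b B =>
        simp only [List.cons_append, List.nil_append, Hybrid.badJoins]
        split_ifs <;> omega
    | cons a' A =>
      simp only [List.cons_append, Hybrid.badJoins] at ih ⊢
      omega

lemma Hybrid.badJoins_iter (H : Hybrid Chord Eqn Wheel) (n : ℕ) (r : Node Chord Eqn) :
    H.badJoins ((List.range n).map fun i => (H.succ^[i]) r) = 0 := by
  induction n generalizing r with
  | zero => simp [Hybrid.badJoins]
  | succ n ih =>
    rw [List.range_succ_eq_map]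
    cases n with
    | zero => simp [Hybrid.badJoins]
    | succ n =>
      have h2 := ih (H.succ r)
      rw [List.range_succ_eq_map] at h2 ⊢
      simp only [List.map_cons, List.map_map, Hybrid.badJoins] at h2 ⊢
      simp only [Nat.succ_eq_add_one, Function.iterate_succ_apply] at h2 ⊢
      have h3 : ((fun i => (H.succ^[i]) r) ∘ Nat.succ ∘ Nat.succ) =
          ((fun i => (H.succ^[i]) (H.succ r)) ∘ Nat.succ) := by
        funext i
        simp only [Function.comp, Function.iterate_succ_apply, Nat.succ_eq_add_one]
      simp only [Function.iterate_zero, id] at h2 ⊢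
      simp only [if_true] at h2 ⊢
      rw [h3]
      simpa using h2

lemma wheel_iter (H : Hybrid Chord Eqn Wheel) (k : ℕ) (v : Node Chord Eqn) :
    H.wheel ((H.succ^[k]) v) = H.wheel v := by
  induction k generalizing v with
  | zero => rfl
  | succ k ih => rw [Function.iterate_succ_apply, ih, H.wheel_succ]

variable [Fintype Chord] [Fintype Eqn] [Fintype Wheel]

open Classical in
/-- A list of all nodes running through the wheels one after the other. -/
theorem exists_nodeList (H : Hybrid Chord Eqn Wheel) :
    ∃ L : List (Node Chord Eqn), L.Nodup ∧ (∀ v, v ∈ L) ∧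
      (H.badJoins L + 1 ≤ Fintype.card Wheel ∨ L = []) := by
  have hperiod : ∀ v : Node Chord Eqn, 0 < Function.minimalPeriod H.succ v := by
    intro v
    apply Function.minimalPeriod_pos_of_mem_periodicPts
    refine ⟨orderOf H.succ, orderOf_pos _, ?_⟩
    have h := pow_orderOf_eq_one H.succ
    have h2 : ((H.succ ^ orderOf H.succ : Equiv.Perm _) : _ → _) = (H.succ^[orderOf H.succ]) :=
      Equiv.Perm.coe_pow _ _
    show (H.succ^[orderOf H.succ]) v = v
    rw [← h2, h]
    rfl
  let cyc : Wheel → List (Node Chord Eqn) := fun w =>
    if h : ∃ v, H.wheel v = w then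
      (List.range (Function.minimalPeriod H.succ h.choose)).map fun i => (H.succ^[i]) h.choose
    else []
  have hcyc_wheel : ∀ w, ∀ x ∈ cyc w, H.wheel x = w := by
    intro w x hx
    simp only [cyc] at hx
    split_ifs at hx with h
    · simp only [List.mem_map] at hx
      obtain ⟨i, _, rfl⟩ := hx
      rw [wheel_iter, h.choose_spec]
    · simp at hx
  have hcyc_mem : ∀ v, v ∈ cyc (H.wheel v) := by
    intro v
    have h : ∃ x, H.wheel x = H.wheel v := ⟨v, rfl⟩
    simp only [cyc, dif_pos h]
    obtain ⟨k, hk⟩ := H.wheel_cycle h.choose v h.choose_spec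
    simp only [List.mem_map, List.mem_range]
    refine ⟨k % Function.minimalPeriod H.succ h.choose, Nat.mod_lt _ (hperiod _), ?_⟩
    rw [Function.iterate_mod_minimalPeriod_eq, hk]
  have hcyc_nodup : ∀ w, (cyc w).Nodup := by
    intro w
    simp only [cyc]
    split_ifs with h
    · refine List.Nodup.map_on ?_ List.nodup_range
      intro i hi j hj hij
      exact Function.iterate_injOn_Iio_minimalPeriod (by simpa using hi) (by simpa using hj) hij
    · simp
  have hcyc_bad : ∀ w, H.badJoins (cyc w) = 0 := by
    intro w
    simp only [cyc]
    split_ifs with h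
    · exact H.badJoins_iter _ _
    · simp [Hybrid.badJoins]
  have hflat : ∀ l : List Wheel, H.badJoins (l.flatMap cyc) + 1 ≤ l.length ∨ l = [] := by
    intro l
    induction l with
    | nil => right; rfl
    | cons w l ih =>
      left
      rw [List.flatMap_cons]
      have h1 := H.badJoins_append (cyc w) (l.flatMap cyc)
      rw [hcyc_bad] at h1
      simp only [List.length_cons]
      rcases ih with ih | rfl
      · omega
      · simp only [List.flatMap_nil, List.append_nil, hcyc_bad, List.length_nil]
        omega
  refine ⟨(Finset.univ : Finset Wheel).toList.flatMap cyc, ?_, ?_, ?_⟩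
  · rw [List.nodup_flatMap]
    refine ⟨fun w _ => hcyc_nodup w, ?_⟩
    refine List.Pairwise.imp_of_mem ?_ (Finset.nodup_toList _)
    intro a b _ _ hab
    simp only [Function.onFun]
    rw [List.disjoint_left]
    intro x hxa hxb
    exact hab ((hcyc_wheel a x hxa).symm.trans (hcyc_wheel b x hxb))
  · intro v
    simp only [List.mem_flatMap]
    exact ⟨H.wheel v, by simp, hcyc_mem v⟩
  · rcases hflat (Finset.univ : Finset Wheel).toList with h | h
    · left
      simpa using h
    · right
      rw [h]
      simp

end Vale.Agent.P333
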