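import Vale.Agent.P333.Fib
import Vale.Agent.P333.NodeList

set_option linter.unusedSectionVars false

namespace Vale.Agent.P333

open Finset

section breaks

variable {W L : Type} [DecidableEq L] (S : FlowSys W L)

lemma FlowSys.breaks_snoc (A : List W) (b : W) : S.breaks (A ++ [b]) ≤ S.breaks A + 1 := by
  induction A with
  | nil => simp [FlowSys.breaks]
  | cons a A ih =>
    cases A with
    | nil => simp only [List.cons_append, List.nil_append, FlowSys.breaks]; split_ifs <;> omega
    | cons a' A =>
      simp only [List.cons_append, FlowSys.breaks] at ih ⊢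
      omega

lemma FlowSys.breaks_append_le (A B : List W) : S.breaks (A ++ B) ≤ S.breaks A + B.length := by
  induction B generalizing A with
  | nil => simp
  | cons b B ih =>
    have h1 := ih (A ++ [b])
    have h2 := S.breaks_snoc A b
    simp only [List.append_assoc, List.cons_append, List.nil_append] at h1
    simp only [List.length_cons]
    omega

lemma FlowSys.breaks_join (A0 : List W) (a b : W) (B : List W) :
    S.breaks (A0 ++ [a] ++ b :: B) =
      S.breaks (A0 ++ [a]) + (if S.tgt a = S.src b then 0 else 1) + S.breaks (b :: B) := by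
  induction A0 with
  | nil => simp [FlowSys.breaks]
  | cons a0 A0 ih =>
    cases A0 with
    | nil =>
      simp only [List.cons_append, List.nil_append, FlowSys.breaks] at ih ⊢
      omega
    | cons a1 A0 =>
      simp only [List.cons_append, List.append_assoc, FlowSys.breaks] at ih ⊢
      omega

end breaks

variable {Chord Eqn Wheel : Type}

/-- Period of the clause of a word. -/
def Word.per : Word Chord Eqn → ℕ
  | .chk .. => 2
  | .tollIn .. => 2
  | .tollOut .. => 2
  | .con .. => 3
  | .loop .. => 3

variable [DecidableEq Eqn] [DecidableEq (Letter Chord Eqn)]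
variable (H : Hybrid Chord Eqn Wheel) (α : Node Chord Eqn → Bool)

lemma flow_per (w : Word Chord Eqn) : (H.flow.next^[w.per]) w = w := by
  cases w with
  | chk c side σ => simp [Word.per, Hybrid.flow, nextPerm, Word.next]
  | tollIn e i σ => simp [Word.per, Hybrid.flow, nextPerm, Word.next]
  | tollOut e i σ => simp [Word.per, Hybrid.flow, nextPerm, Word.next]
  | con e i => simp [Word.per, Hybrid.flow, nextPerm, Word.next]
  | loop e i j => cases j <;> simp [Word.per, Hybrid.flow, nextPerm, Word.next]

/-- Is the contact arc on the route of the assignment? -/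
def oo (e : Eqn) (i : Fin 3) : Bool := α (Sum.inr (e, i)) == H.act e i

/-- Gadget words used at the first contact. -/
def mid0 (e : Eqn) (o0 o1 o2 : Bool) : List (Word Chord Eqn) :=
  if o0 then .con e 0 :: (if (!o1 && !o2) then [.loop e 1 false, .loop e 2 false] else [])
  else if (o1 && o2) then []
  else if (!o1 && o2) then [.loop e 0 true, .loop e 1 true]
  else [.loop e 0 false, .loop e 2 true]

/-- Gadget words used at a contact. -/
def middle (e : Eqn) (i : Fin 3) : List (Word Chord Eqn) :=
  if i = 0 then mid0 e (oo H α e 0) (oo H α e 1) (oo H α e 2)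
  else if oo H α e i then [.con e i] else []

/-- Words used by the route at a node. -/
def block : Node Chord Eqn → List (Word Chord Eqn)
  | Sum.inl (c, side) => [.chk c side (α (Sum.inl (c, side)))]
  | Sum.inr (e, i) =>
    .tollIn e i (α (Sum.inr (e, i))) :: (middle H α e i ++ [.tollOut e i (α (Sum.inr (e, i)))])

lemma block_head (v : Node Chord Eqn) : ∃ B, block H α v = Word.first v (α v) :: B := by
  rcases v with ⟨c, side⟩ | ⟨e, i⟩
  · exact ⟨[], rfl⟩
  · exact ⟨_, rfl⟩

lemma block_last (v : Node Chord Eqn) : ∃ A, block H α v = A ++ [Word.last v (α v)] := by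
  rcases v with ⟨c, side⟩ | ⟨e, i⟩
  · exact ⟨[], rfl⟩
  · exact ⟨.tollIn e i (α (Sum.inr (e, i))) :: middle H α e i, rfl⟩

lemma flow_tgt (w : Word Chord Eqn) : H.flow.tgt w = H.tgt w := rfl
lemma flow_src (w : Word Chord Eqn) : H.flow.src w = H.src w := rfl

lemma block_breaks (v : Node Chord Eqn) : H.flow.breaks (block H α v) = 0 := by
  rcases v with ⟨c, side⟩ | ⟨e, i⟩
  · rfl
  · rcases fin3_cases i with rfl | rfl | rfl
    · simp only [block, middle, if_true]
      by_cases hp : α (Sum.inr (e, 0)) = H.act e 0
      · have h0 : oo H α e 0 = true := by simp [oo, hp]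
        cases h1 : oo H α e 1 <;> cases h2 : oo H α e 2 <;>
          simp [mid0, h0, FlowSys.breaks, flow_tgt, flow_src, Hybrid.tgt, Hybrid.src, hp]
      · have h0 : oo H α e 0 = false := by simp [oo, hp]
        cases h1 : oo H α e 1 <;> cases h2 : oo H α e 2 <;>
          simp [mid0, h0, FlowSys.breaks, flow_tgt, flow_src, Hybrid.tgt, Hybrid.src, hp]
    · have h01 : (1 : Fin 3) ≠ 0 := by decide
      simp only [block, middle, if_neg h01]
      by_cases hp : α (Sum.inr (e, 1)) = H.act e 1
      · have h0 : oo H α e 1 = true := by simp [oo, hp]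
        simp [h0, FlowSys.breaks, flow_tgt, flow_src, Hybrid.tgt, Hybrid.src, hp]
      · have h0 : oo H α e 1 = false := by simp [oo, hp]
        simp [h0, FlowSys.breaks, flow_tgt, flow_src, Hybrid.tgt, Hybrid.src, hp]
    · have h01 : (2 : Fin 3) ≠ 0 := by decide
      simp only [block, middle, if_neg h01]
      by_cases hp : α (Sum.inr (e, 2)) = H.act e 2
      · have h0 : oo H α e 2 = true := by simp [oo, hp]
        simp [h0, FlowSys.breaks, flow_tgt, flow_src, Hybrid.tgt, Hybrid.src, hp]
      · have h0 : oo H α e 2 = false := by simp [oo, hp]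
        simp [h0, FlowSys.breaks, flow_tgt, flow_src, Hybrid.tgt, Hybrid.src, hp]

lemma tgt_last (v : Node Chord Eqn) (σ : Bool) : H.tgt (Word.last v σ) = .edge v σ :=
  (tgt_edge H v σ _).2 rfl

lemma src_first (v : Node Chord Eqn) (σ : Bool) :
    H.src (Word.first v σ) = .edge (H.succ.symm v) σ :=
  (src_edge H (H.succ.symm v) σ _).2 (by simp)

open Classical in
lemma breaks_flat (L : List (Node Chord Eqn)) :
    H.flow.breaks (L.flatMap (block H α)) ≤
      H.badJoins L + (L.map fun v => if α v ≠ α (H.succ v) then 1 else 0).sum := by
  induction L with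
  | nil => simp [FlowSys.breaks]
  | cons v L ih =>
    cases L with
    | nil =>
      simp only [List.flatMap_cons, List.flatMap_nil, List.append_nil, block_breaks]
      omega
    | cons v' L =>
      obtain ⟨A, hA⟩ := block_last H α v
      obtain ⟨B, hB⟩ := block_head H α v'
      have hA0 := block_breaks H α v
      rw [hA] at hA0
      have heq : (v :: v' :: L).flatMap (block H α) =
          A ++ [Word.last v (α v)] ++ Word.first v' (α v') :: (B ++ L.flatMap (block H α)) := by
        simp only [List.flatMap_cons]
        rw [hA, hB]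
        simp
      have heq2 : (v' :: L).flatMap (block H α) =
          Word.first v' (α v') :: (B ++ L.flatMap (block H α)) := by
        simp only [List.flatMap_cons]
        rw [hB]
        simp
      rw [heq, FlowSys.breaks_join, hA0]
      rw [heq2] at ih
      simp only [List.map_cons, List.sum_cons] at ih ⊢
      simp only [Hybrid.badJoins]
      have hjn : (if H.flow.tgt (Word.last v (α v)) = H.flow.src (Word.first v' (α v')) then 0 else 1) ≤
          (if H.succ v = v' then 0 else 1) + (if α v ≠ α (H.succ v) then 1 else 0) := by
        by_cases h1 : H.succ v = v'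
        · by_cases h2 : α v = α (H.succ v)
          · have h3 : H.flow.tgt (Word.last v (α v)) = H.flow.src (Word.first v' (α v')) := by
              rw [flow_tgt, flow_src, tgt_last, src_first, ← h1, ← h2]
              simp
            rw [if_pos h3]
            exact Nat.zero_le _
          · have h4 : (if α v ≠ α (H.succ v) then 1 else 0) = 1 := if_pos h2
            rw [h4]
            split_ifs <;> omega
        · have h4 : (if H.succ v = v' then 0 else 1) = 1 := if_neg h1
          rw [h4]
          split_ifs <;> omega
      by_cases h1 : H.succ v = v'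
      · simp only [if_pos h1] at hjn ⊢
        omega
      · simp only [if_neg h1] at hjn ⊢
        omega

lemma sum_flatMap {A B : Type} (f : A → List B) (g : B → ℕ) (L : List A) :
    ((L.flatMap f).map g).sum = (L.map fun v => ((f v).map g).sum).sum := by
  induction L with
  | nil => simp
  | cons v L ih => simp [List.flatMap_cons, ih]

lemma sum_const_of {A : Type} (g : A → ℕ) (c : ℕ) (l : List A) (h : ∀ x ∈ l, g x = c) :
    (l.map g).sum = l.length * c := by
  induction l with
  | nil => simp
  | cons x l ih =>
    simp only [List.map_cons, List.sum_cons, List.length_cons]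
    rw [h x (by simp), ih (fun y hy => h y (by simp [hy]))]
    ring

/-- Cost of a word in the route. -/
def cst (a : Word Chord Eqn) : ℕ := 2 * a.per + 1

/-- Index of the clause left uncovered at a violated equation. -/
def idx (o0 o1 o2 : Bool) : Fin 3 :=
  if (!o0 && o1 && o2) then 0 else if (o0 && o1 && !o2) then 2 else 1

variable [Fintype Chord] [Fintype Eqn]

/-- The chords cut by `α`. -/
def cutChords : Finset Chord :=
  univ.filter fun c => α (Sum.inl (c, false)) ≠ α (Sum.inl (c, true))

/-- The equations violated by `α`. -/
def violEqs : Finset Eqn :=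
  univ.filter fun e =>
    xor (xor (α (Sum.inr (e, 0))) (α (Sum.inr (e, 1)))) (α (Sum.inr (e, 2))) ≠ H.rhs e

/-- The list of words used by the route. -/
noncomputable def route (L : List (Node Chord Eqn)) : List (Word Chord Eqn) :=
  L.flatMap (block H α) ++
    ((cutChords α).toList.map fun c => Word.chk c false (!α (Sum.inl (c, false)))) ++
    ((violEqs H α).toList.map fun e => Word.con e (idx (oo H α e 0) (oo H α e 1) (oo H α e 2)))

lemma viol_iff : ∀ a0 a1 a2 r : Bool, (xor (xor a0 a1) a2 ≠ r) ↔
    xor (xor (!(a0 == r)) (!(a1 == false))) (!(a2 == false)) = true := by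
  decide

lemma mcost_sum (e : Eqn) :
    ∑ i : Fin 3, ((middle H α e i).map cst).sum + (if e ∈ violEqs H α then 7 else 0) = 21 := by
  have hv : (e ∈ violEqs H α) ↔
      xor (xor (!oo H α e 0) (!oo H α e 1)) (!oo H α e 2) = true := by
    have h1 : H.act e 0 = H.rhs e := by simp [Hybrid.act]
    have h2 : H.act e 1 = false := by simp [Hybrid.act]
    have h3 : H.act e 2 = false := by simp [Hybrid.act]
    simp only [violEqs, mem_filter, mem_univ, true_and, oo, h1, h2, h3]
    exact viol_iff _ _ _ _
  rw [Fin.sum_univ_three]
  have h01 : (1 : Fin 3) ≠ 0 := by decide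
  have h02 : (2 : Fin 3) ≠ 0 := by decide
  simp only [middle, if_true, if_neg h01, if_neg h02]
  by_cases h : e ∈ violEqs H α
  · rw [if_pos h]
    rw [hv] at h
    cases h0 : oo H α e 0 <;> cases h1 : oo H α e 1 <;> cases h2 : oo H α e 2 <;>
      simp [h0, h1, h2] at h <;> simp [mid0, cst, Word.per]
  · rw [if_neg h]
    rw [hv] at h
    cases h0 : oo H α e 0 <;> cases h1 : oo H α e 1 <;> cases h2 : oo H α e 2 <;>
      simp [h0, h1, h2] at h <;> simp [mid0, cst, Word.per]

lemma block_cost_sum :
    ∑ v, ((block H α v).map cst).sum = 10 * Fintype.card Chord + 30 * Fintype.card Eqn +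
      ∑ e, ∑ i : Fin 3, ((middle H α e i).map cst).sum := by
  rw [Fintype.sum_sum_type, Fintype.sum_prod_type (f := fun y : Eqn × Fin 3 => _)]
  have h1 : ∀ x : Chord × Bool, ((block H α (Sum.inl x)).map cst).sum = 5 := by
    rintro ⟨c, side⟩
    simp [block, cst, Word.per]
  have h2 : ∀ (e : Eqn) (i : Fin 3), ((block H α (Sum.inr (e, i))).map cst).sum =
      10 + ((middle H α e i).map cst).sum := by
    intro e i
    simp [block, cst, Word.per]
    omega
  simp only [h1, h2, sum_const, card_univ, smul_eq_mul, Fintype.card_prod, Fintype.card_bool,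
    sum_add_distrib, Fintype.card_fin]
  ring

lemma mem_viol_iff (e : Eqn) : (e ∈ violEqs H α) ↔
    xor (xor (!oo H α e 0) (!oo H α e 1)) (!oo H α e 2) = true := by
  have h1 : H.act e 0 = H.rhs e := by simp [Hybrid.act]
  have h2 : H.act e 1 = false := by simp [Hybrid.act]
  have h3 : H.act e 2 = false := by simp [Hybrid.act]
  simp only [violEqs, mem_filter, mem_univ, true_and, oo, h1, h2, h3]
  exact viol_iff _ _ _ _

lemma clause_hit (e : Eqn) (P : Word Chord Eqn → Prop) :
    ∀ o0 o1 o2 : Bool, (∀ a ∈ mid0 e o0 o1 o2, P a) → (o1 = true → P (.con e 1)) →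
      (o2 = true → P (.con e 2)) →
      (xor (xor (!o0) (!o1)) (!o2) = true → P (.con e (idx o0 o1 o2))) →
      ∀ i, P (.con e i) ∨ P (.loop e i false) ∨ P (.loop e i true) := by
  intro o0 o1 o2 h0 h1 h2 h3 i
  have hi : idx true true false = (2 : Fin 3) ∧ idx false true true = (0 : Fin 3) ∧
      idx true false true = (1 : Fin 3) ∧ idx false false false = (1 : Fin 3) := by decide
  obtain ⟨hi1, hi2, hi3, hi4⟩ := hi
  cases o0 <;> cases o1 <;> cases o2 <;> rcases fin3_cases i with rfl | rfl | rfl <;>
    simp_all [mid0]

omit [DecidableEq (Letter Chord Eqn)] in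
/-- Upper bound: an assignment yields a superstring. -/
theorem upper_main [Fintype Wheel] (α : Node Chord Eqn → Bool) :
    ∃ T : List (Letter Chord Eqn), (∀ w, H.string w <:+: T) ∧
      T.length ≤ 10 * Fintype.card Chord + 51 * Fintype.card Eqn + Fintype.card Wheel +
        6 * H.unsat α := by
  classical
  obtain ⟨L, hnd, hall, hbad⟩ := exists_nodeList H
  rcases hbad with hbad | hLnil
  swap
  · refine ⟨[], ?_, by simp⟩
    have hno : ∀ v : Node Chord Eqn, False := by
      intro v
      have := hall v
      simp [hLnil] at this
    intro w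
    exfalso
    cases w with
    | chk c side σ => exact hno (Sum.inl (c, side))
    | tollIn e i σ => exact hno (Sum.inr (e, i))
    | tollOut e i σ => exact hno (Sum.inr (e, i))
    | con e i => exact hno (Sum.inr (e, i))
    | loop e i j => exact hno (Sum.inr (e, i))
  set R := route H α L with hR
  obtain ⟨T, hcov, hlen, _⟩ := H.flow.upper Word.per (flow_per H) R
  have hblock : ∀ v, ∀ a ∈ block H α v, a ∈ R := by
    intro v a ha
    simp only [hR, route, List.mem_append, List.mem_flatMap]
    exact Or.inl (Or.inl ⟨v, hall v, ha⟩)
  have hchord : ∀ c ∈ cutChords α, Word.chk c false (!α (Sum.inl (c, false))) ∈ R := by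
    intro c hc
    simp only [hR, route, List.mem_append, List.mem_map, Finset.mem_toList]
    exact Or.inl (Or.inr ⟨c, hc, rfl⟩)
  have hviol : ∀ e ∈ violEqs H α,
      Word.con e (idx (oo H α e 0) (oo H α e 1) (oo H α e 2)) ∈ R := by
    intro e he
    simp only [hR, route, List.mem_append, List.mem_map, Finset.mem_toList]
    exact Or.inr ⟨e, he, rfl⟩
  have hcl : ∀ e i, Word.con e i ∈ R ∨ Word.loop e i false ∈ R ∨ Word.loop e i true ∈ R := by
    intro e
    apply clause_hit e (· ∈ R) (oo H α e 0) (oo H α e 1) (oo H α e 2)
    · intro a ha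
      apply hblock (Sum.inr (e, 0))
      simp only [block, middle, if_true, List.mem_cons, List.mem_append]
      exact Or.inr (Or.inl ha)
    · intro h
      apply hblock (Sum.inr (e, 1))
      have h01 : (1 : Fin 3) ≠ 0 := by decide
      simp [block, middle, h01, h]
    · intro h
      apply hblock (Sum.inr (e, 2))
      have h01 : (2 : Fin 3) ≠ 0 := by decide
      simp [block, middle, h01, h]
    · intro h
      exact hviol e ((mem_viol_iff H α e).2 h)
  have hch : ∀ c σ, Word.chk c false σ ∈ R ∨ Word.chk c true (!σ) ∈ R := by
    intro c σ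
    by_cases h1 : α (Sum.inl (c, false)) = σ
    · left
      apply hblock (Sum.inl (c, false))
      simp [block, h1]
    · by_cases h2 : α (Sum.inl (c, true)) = !σ
      · right
        apply hblock (Sum.inl (c, true))
        simp [block, h2]
      · left
        have hcut : c ∈ cutChords α := by
          simp only [cutChords, mem_filter, mem_univ, true_and]
          cases σ <;> cases h3 : α (Sum.inl (c, false)) <;> cases h4 : α (Sum.inl (c, true)) <;>
            simp_all
        have := hchord c hcut
        have h5 : (!α (Sum.inl (c, false))) = σ := by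
          cases σ <;> cases h3 : α (Sum.inl (c, false)) <;> simp_all
        rwa [h5] at this
  have hsub : ∀ w, ∃ a ∈ R, ∃ j < a.per, (H.flow.next^[j]) a = w := by
    intro w
    cases w with
    | chk c side σ =>
      cases side with
      | false =>
        rcases hch c σ with h | h
        · exact ⟨_, h, 0, by simp [Word.per], rfl⟩
        · exact ⟨_, h, 1, by simp [Word.per], by simp [Hybrid.flow, nextPerm, Word.next]⟩
      | true =>
        rcases hch c (!σ) with h | h
        · exact ⟨_, h, 1, by simp [Word.per], by simp [Hybrid.flow, nextPerm, Word.next]⟩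
        · rw [Bool.not_not] at h
          exact ⟨_, h, 0, by simp [Word.per], rfl⟩
    | tollIn e i σ =>
      have h : Word.tollIn e i (α (Sum.inr (e, i))) ∈ R := by
        apply hblock (Sum.inr (e, i))
        simp [block]
      by_cases h1 : α (Sum.inr (e, i)) = σ
      · rw [h1] at h
        exact ⟨_, h, 0, by simp [Word.per], rfl⟩
      · refine ⟨_, h, 1, by simp [Word.per], ?_⟩
        simp only [Hybrid.flow, nextPerm, Function.iterate_one, Equiv.coe_fn_mk, Word.next]
        congr 1
        cases σ <;> cases h3 : α (Sum.inr (e, i)) <;> simp_all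
    | tollOut e i σ =>
      have h : Word.tollOut e i (α (Sum.inr (e, i))) ∈ R := by
        apply hblock (Sum.inr (e, i))
        simp [block]
      by_cases h1 : α (Sum.inr (e, i)) = σ
      · rw [h1] at h
        exact ⟨_, h, 0, by simp [Word.per], rfl⟩
      · refine ⟨_, h, 1, by simp [Word.per], ?_⟩
        simp only [Hybrid.flow, nextPerm, Function.iterate_one, Equiv.coe_fn_mk, Word.next]
        congr 1
        cases σ <;> cases h3 : α (Sum.inr (e, i)) <;> simp_all
    | con e i =>
      rcases hcl e i with h | h | h
      · exact ⟨_, h, 0, by simp [Word.per], rfl⟩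
      · exact ⟨_, h, 2, by simp [Word.per], rfl⟩
      · exact ⟨_, h, 1, by simp [Word.per], rfl⟩
    | loop e i j =>
      cases j with
      | false =>
        rcases hcl e i with h | h | h
        · exact ⟨_, h, 1, by simp [Word.per], rfl⟩
        · exact ⟨_, h, 0, by simp [Word.per], rfl⟩
        · exact ⟨_, h, 2, by simp [Word.per], rfl⟩
      | true =>
        rcases hcl e i with h | h | h
        · exact ⟨_, h, 2, by simp [Word.per], rfl⟩
        · exact ⟨_, h, 1, by simp [Word.per], rfl⟩
        · exact ⟨_, h, 0, by simp [Word.per], rfl⟩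
  refine ⟨T, ?_, ?_⟩
  · intro w
    obtain ⟨a, ha, j, hj, rfl⟩ := hsub w
    exact hcov a ha j hj
  -- the length
  have hLuniv : L.toFinset = univ := by
    ext v; simp [hall v]
  have hsumL : ∀ g : Node Chord Eqn → ℕ, (L.map g).sum = ∑ v, g v := by
    intro g
    rw [← List.sum_toFinset g hnd, hLuniv]
  have hc1 : (R.map fun a => 2 * a.per + 1).sum =
      ∑ v, ((block H α v).map cst).sum + (cutChords α).card * 5 + (violEqs H α).card * 7 := by
    have hh : (R.map fun a => 2 * a.per + 1) = R.map cst := rfl
    rw [hh, hR, route, List.map_append, List.map_append, List.sum_append, List.sum_append,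
      sum_flatMap, hsumL]
    congr 2
    · rw [List.map_map, sum_const_of _ 5]
      · simp
      · intro x hx
        simp [cst, Word.per]
    · rw [List.map_map, sum_const_of _ 7]
      · simp
      · intro x hx
        simp [cst, Word.per]
  have hb1 : H.flow.breaks R ≤ H.badJoins L +
      (L.map fun v => if α v ≠ α (H.succ v) then 1 else 0).sum +
      (cutChords α).card + (violEqs H α).card := by
    have h1 := H.flow.breaks_append_le (L.flatMap (block H α) ++
      ((cutChords α).toList.map fun c => Word.chk c false (!α (Sum.inl (c, false)))))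
      ((violEqs H α).toList.map fun e => Word.con e (idx (oo H α e 0) (oo H α e 1) (oo H α e 2)))
    have h2 := H.flow.breaks_append_le (L.flatMap (block H α))
      ((cutChords α).toList.map fun c => Word.chk c false (!α (Sum.inl (c, false))))
    have h3 := breaks_flat H α L
    simp only [List.length_map, Finset.length_toList] at h1 h2
    rw [hR, route]
    omega
  rw [hsumL] at hb1
  have hcirc : ∑ v, (if α v ≠ α (H.succ v) then 1 else 0) =
      (univ.filter fun v => α v ≠ α (H.succ v)).card := by
    rw [card_filter]
  have hblk := block_cost_sum H α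
  have hm : ∑ e, ∑ i : Fin 3, ((middle H α e i).map cst).sum + (violEqs H α).card * 7 =
      21 * Fintype.card Eqn := by
    have h1 := sum_congr (rfl : (univ : Finset Eqn) = univ) (fun e _ => mcost_sum H α e)
    rw [sum_add_distrib, sum_ite_mem] at h1
    simp only [univ_inter, sum_const, card_univ, smul_eq_mul] at h1
    omega
  have hU : H.unsat α = (univ.filter fun v => α v ≠ α (H.succ v)).card + (cutChords α).card +
      (violEqs H α).card := rfl
  omega

end Vale.Agent.P333
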