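import Mathlib

/-!
# The Berman-Karpinski Hybrid problem and its reduction to shortest common superstring.

A Hybrid system has variables (nodes) arranged on disjoint cycles (wheels). A node is either a
checker, one of the two ends of a chord, or a contact, one of the three positions of a
three-variable equation. The equations of the system are: the circle equation `x v = x (succ v)`
for each node, the chord equation for each chord, and the parity equation of each `e : Eqn`.
-/

namespace Vale.Agent.P333

/-- Nodes (variables) of a Hybrid system: the two ends of each chord and the three contacts of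
each three-variable equation. -/
abbrev Node (Chord Eqn : Type) : Type := (Chord × Bool) ⊕ (Eqn × Fin 3)

/-- A Hybrid system. `succ` is the cyclic order on the wheels, `wheel` names the wheel of a node
(each wheel is exactly one cycle of `succ`), chords join two nodes of one wheel, the three contacts
of an equation lie on three different wheels and `rhs e` is the right-hand side of equation `e`. -/
structure Hybrid (Chord Eqn Wheel : Type) where
  succ : Equiv.Perm (Node Chord Eqn)
  wheel : Node Chord Eqn → Wheel
  rhs : Eqn → Bool
  wheel_succ : ∀ v, wheel (succ v) = wheel v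
  wheel_cycle : ∀ u v, wheel u = wheel v → ∃ k : ℕ, (succ^[k]) u = v
  chord_wheel : ∀ c, wheel (Sum.inl (c, false)) = wheel (Sum.inl (c, true))
  eqn_wheel : ∀ e i j, i ≠ j → wheel (Sum.inr (e, i)) ≠ wheel (Sum.inr (e, j))

variable {Chord Eqn Wheel : Type}

/-- The number of equations of the Hybrid system violated by the assignment `α`. -/
def Hybrid.unsat [Fintype Chord] [Fintype Eqn] (H : Hybrid Chord Eqn Wheel)
    (α : Node Chord Eqn → Bool) : ℕ :=
  (Finset.univ.filter fun v => α v ≠ α (H.succ v)).card +
  (Finset.univ.filter fun c : Chord => α (Sum.inl (c, false)) ≠ α (Sum.inl (c, true))).card +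
  (Finset.univ.filter fun e : Eqn =>
    xor (xor (α (Sum.inr (e, 0))) (α (Sum.inr (e, 1)))) (α (Sum.inr (e, 2))) ≠ H.rhs e).card

/-- The letters of the superstring instance. `edge v σ` sits on route `σ` between `v` and `succ v`;
`act1`, `act2` and `pass` sit inside the block of a contact, `mid` on the loops of an equation. -/
inductive Letter (Chord Eqn : Type) : Type
  | edge (v : Node Chord Eqn) (σ : Bool)
  | act1 (e : Eqn) (i : Fin 3)
  | act2 (e : Eqn) (i : Fin 3)
  | pass (e : Eqn) (i : Fin 3)
  | mid (e : Eqn) (k : Fin 3)

/-- The two-letter words of the superstring instance. -/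
inductive Word (Chord Eqn : Type) : Type
  | chk (c : Chord) (side σ : Bool)
  | tollIn (e : Eqn) (i : Fin 3) (σ : Bool)
  | tollOut (e : Eqn) (i : Fin 3) (σ : Bool)
  | con (e : Eqn) (i : Fin 3)
  | loop (e : Eqn) (i : Fin 3) (j : Bool)

/-- The route carrying the contact arc of contact `i` of equation `e`. -/
def Hybrid.act (H : Hybrid Chord Eqn Wheel) (e : Eqn) (i : Fin 3) : Bool :=
  if i = 0 then H.rhs e else false

/-- First letter of a word. -/
def Hybrid.src [DecidableEq Eqn] (H : Hybrid Chord Eqn Wheel) : Word Chord Eqn → Letter Chord Eqn
  | .chk c side σ => .edge (H.succ.symm (Sum.inl (c, side))) σ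
  | .tollIn e i σ => .edge (H.succ.symm (Sum.inr (e, i))) σ
  | .tollOut e i σ => if σ = H.act e i then .act2 e i else .pass e i
  | .con e i => .act1 e i
  | .loop e i j =>
      if i = 0 then .pass e 0
      else if i = 1 then (if j then .mid e 2 else .act2 e 0)
      else (if j then .mid e 1 else .mid e 0)

/-- Second letter of a word. -/
def Hybrid.tgt [DecidableEq Eqn] (H : Hybrid Chord Eqn Wheel) : Word Chord Eqn → Letter Chord Eqn
  | .chk c side σ => .edge (Sum.inl (c, side)) σ
  | .tollIn e i σ => if σ = H.act e i then .act1 e i else .pass e i
  | .tollOut e i σ => .edge (Sum.inr (e, i)) σ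
  | .con e i => .act2 e i
  | .loop e i j =>
      if i = 0 then (if j then .mid e 2 else .mid e 1)
      else if i = 1 then (if j then .pass e 0 else .mid e 0)
      else (if j then .pass e 0 else .act2 e 0)

/-- The cyclic successor of a word inside its clause. -/
def Word.next : Word Chord Eqn → Word Chord Eqn
  | .chk c side σ => .chk c (!side) (!σ)
  | .tollIn e i σ => .tollIn e i (!σ)
  | .tollOut e i σ => .tollOut e i (!σ)
  | .con e i => .loop e i false
  | .loop e i false => .loop e i true
  | .loop e i true => .con e i

/-- The four-letter string attached to a word: the word followed by its successor. -/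
def Hybrid.string [DecidableEq Eqn] (H : Hybrid Chord Eqn Wheel) (w : Word Chord Eqn) :
    List (Letter Chord Eqn) :=
  [H.src w, H.tgt w, H.src w.next, H.tgt w.next]

end Vale.Agent.P333
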