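import Vale.Agent.P333.Sys

namespace Vale.Agent.P333

open Finset

variable {Chord Eqn Wheel : Type} [DecidableEq Eqn] (H : Hybrid Chord Eqn Wheel)

/-- First word of the block of a node on route `σ`. -/
def Word.first : Node Chord Eqn → Bool → Word Chord Eqn
  | Sum.inl (c, side), σ => .chk c side σ
  | Sum.inr (e, i), σ => .tollIn e i σ

/-- Last word of the block of a node on route `σ`. -/
def Word.last : Node Chord Eqn → Bool → Word Chord Eqn
  | Sum.inl (c, side), σ => .chk c side σ
  | Sum.inr (e, i), σ => .tollOut e i σ

lemma tgt_edge (v : Node Chord Eqn) (σ : Bool) (w : Word Chord Eqn) :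
    H.tgt w = .edge v σ ↔ w = Word.last v σ := by
  constructor
  · intro h
    cases w with
    | chk c side σ' =>
      simp only [Hybrid.tgt, Letter.edge.injEq] at h
      obtain ⟨rfl, rfl⟩ := h; rfl
    | tollIn e i σ' => simp only [Hybrid.tgt] at h; split_ifs at h
    | tollOut e i σ' =>
      simp only [Hybrid.tgt, Letter.edge.injEq] at h
      obtain ⟨rfl, rfl⟩ := h; rfl
    | con e i => simp [Hybrid.tgt] at h
    | loop e i j =>
      simp only [Hybrid.tgt] at h
      rcases fin3_cases i with rfl | rfl | rfl <;> cases j <;> simp at h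
  · rintro rfl
    rcases v with ⟨c, side⟩ | ⟨e, i⟩ <;> rfl

lemma src_edge (v : Node Chord Eqn) (σ : Bool) (w : Word Chord Eqn) :
    H.src w = .edge v σ ↔ w = Word.first (H.succ v) σ := by
  constructor
  · intro h
    cases w with
    | chk c side σ' =>
      simp only [Hybrid.src, Letter.edge.injEq] at h
      obtain ⟨h1, rfl⟩ := h
      have : H.succ v = Sum.inl (c, side) := by rw [← h1]; simp
      rw [this]; rfl
    | tollIn e i σ' =>
      simp only [Hybrid.src, Letter.edge.injEq] at h
      obtain ⟨h1, rfl⟩ := h
      have : H.succ v = Sum.inr (e, i) := by rw [← h1]; simp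
      rw [this]; rfl
    | tollOut e i σ' => simp only [Hybrid.src] at h; split_ifs at h
    | con e i => simp [Hybrid.src] at h
    | loop e i j =>
      simp only [Hybrid.src] at h
      rcases fin3_cases i with rfl | rfl | rfl <;> cases j <;> simp at h
  · rintro rfl
    rcases hv : H.succ v with ⟨c, side⟩ | ⟨e, i⟩
    · have : H.succ.symm (Sum.inl (c, side)) = v := by rw [← hv]; simp
      simp [Word.first, Hybrid.src, this]
    · have : H.succ.symm (Sum.inr (e, i)) = v := by rw [← hv]; simp
      simp [Word.first, Hybrid.src, this]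

lemma tgt_act1 (e : Eqn) (i : Fin 3) (w : Word Chord Eqn) :
    H.tgt w = .act1 e i ↔ w = .tollIn e i (H.act e i) := by
  constructor
  · intro h
    cases w with
    | chk c side σ' => simp [Hybrid.tgt] at h
    | tollIn e' i' σ' =>
      simp only [Hybrid.tgt] at h
      split_ifs at h with h2
      simp only [Letter.act1.injEq] at h
      obtain ⟨rfl, rfl⟩ := h
      rw [h2]
    | tollOut e' i' σ' => simp [Hybrid.tgt] at h
    | con e' i' => simp [Hybrid.tgt] at h
    | loop e' i' j =>
      simp only [Hybrid.tgt] at h
      rcases fin3_cases i' with rfl | rfl | rfl <;> cases j <;> simp at h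
  · rintro rfl
    simp [Hybrid.tgt]

lemma src_act1 (e : Eqn) (i : Fin 3) (w : Word Chord Eqn) :
    H.src w = .act1 e i ↔ w = .con e i := by
  constructor
  · intro h
    cases w with
    | chk c side σ' => simp [Hybrid.src] at h
    | tollIn e' i' σ' => simp [Hybrid.src] at h
    | tollOut e' i' σ' => simp only [Hybrid.src] at h; split_ifs at h
    | con e' i' => simpa [Hybrid.src] using h
    | loop e' i' j =>
      simp only [Hybrid.src] at h
      rcases fin3_cases i' with rfl | rfl | rfl <;> cases j <;> simp at h
  · rintro rfl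
    simp [Hybrid.src]

lemma tgt_act2_0 (e : Eqn) (w : Word Chord Eqn) :
    H.tgt w = .act2 e 0 ↔ w = .con e 0 ∨ w = .loop e 2 false := by
  constructor
  · intro h
    cases w with
    | chk c side σ' => simp [Hybrid.tgt] at h
    | tollIn e' i' σ' => simp only [Hybrid.tgt] at h; split_ifs at h
    | tollOut e' i' σ' => simp [Hybrid.tgt] at h
    | con e' i' => simpa [Hybrid.tgt] using h
    | loop e' i' j =>
      simp only [Hybrid.tgt] at h
      rcases fin3_cases i' with rfl | rfl | rfl <;> cases j <;> simp at h
      simp [h]
  · rintro (rfl | rfl) <;> simp [Hybrid.tgt]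

lemma src_act2_0 (e : Eqn) (w : Word Chord Eqn) :
    H.src w = .act2 e 0 ↔ w = .tollOut e 0 (H.act e 0) ∨ w = .loop e 1 false := by
  constructor
  · intro h
    cases w with
    | chk c side σ' => simp [Hybrid.src] at h
    | tollIn e' i' σ' => simp [Hybrid.src] at h
    | tollOut e' i' σ' =>
      simp only [Hybrid.src] at h
      split_ifs at h with h2
      simp only [Letter.act2.injEq] at h
      obtain ⟨rfl, rfl⟩ := h
      left; rw [h2]
    | con e' i' => simp [Hybrid.src] at h
    | loop e' i' j =>
      simp only [Hybrid.src] at h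
      rcases fin3_cases i' with rfl | rfl | rfl <;> cases j <;> simp at h
      simp [h]
  · rintro (rfl | rfl) <;> simp [Hybrid.src]

lemma tgt_act2_ne (e : Eqn) (i : Fin 3) (hi : i ≠ 0) (w : Word Chord Eqn) :
    H.tgt w = .act2 e i ↔ w = .con e i := by
  constructor
  · intro h
    cases w with
    | chk c side σ' => simp [Hybrid.tgt] at h
    | tollIn e' i' σ' => simp only [Hybrid.tgt] at h; split_ifs at h
    | tollOut e' i' σ' => simp [Hybrid.tgt] at h
    | con e' i' => simpa [Hybrid.tgt] using h
    | loop e' i' j =>
      simp only [Hybrid.tgt] at h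
      rcases fin3_cases i' with rfl | rfl | rfl <;> cases j <;> simp at h
      exact absurd h.2.symm hi
  · rintro rfl; simp [Hybrid.tgt]

lemma src_act2_ne (e : Eqn) (i : Fin 3) (hi : i ≠ 0) (w : Word Chord Eqn) :
    H.src w = .act2 e i ↔ w = .tollOut e i (H.act e i) := by
  constructor
  · intro h
    cases w with
    | chk c side σ' => simp [Hybrid.src] at h
    | tollIn e' i' σ' => simp [Hybrid.src] at h
    | tollOut e' i' σ' =>
      simp only [Hybrid.src] at h
      split_ifs at h with h2
      simp only [Letter.act2.injEq] at h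
      obtain ⟨rfl, rfl⟩ := h
      rw [h2]
    | con e' i' => simp [Hybrid.src] at h
    | loop e' i' j =>
      simp only [Hybrid.src] at h
      rcases fin3_cases i' with rfl | rfl | rfl <;> cases j <;> simp at h
      exact absurd h.2.symm hi
  · rintro rfl; simp [Hybrid.src]

lemma tgt_pass_0 (e : Eqn) (w : Word Chord Eqn) :
    H.tgt w = .pass e 0 ↔
      w = .tollIn e 0 (!H.act e 0) ∨ w = .loop e 1 true ∨ w = .loop e 2 true := by
  constructor
  · intro h
    cases w with
    | chk c side σ' => simp [Hybrid.tgt] at h
    | tollIn e' i' σ' =>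
      simp only [Hybrid.tgt] at h
      split_ifs at h with h2
      simp only [Letter.pass.injEq] at h
      obtain ⟨rfl, rfl⟩ := h
      left
      cases σ' <;> cases h3 : H.act e' 0 <;> simp_all
    | tollOut e' i' σ' => simp [Hybrid.tgt] at h
    | con e' i' => simp [Hybrid.tgt] at h
    | loop e' i' j =>
      simp only [Hybrid.tgt] at h
      rcases fin3_cases i' with rfl | rfl | rfl <;> cases j <;> simp at h <;> simp [h]
  · rintro (rfl | rfl | rfl) <;> simp [Hybrid.tgt]

lemma src_pass_0 (e : Eqn) (w : Word Chord Eqn) :
    H.src w = .pass e 0 ↔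
      w = .tollOut e 0 (!H.act e 0) ∨ w = .loop e 0 false ∨ w = .loop e 0 true := by
  constructor
  · intro h
    cases w with
    | chk c side σ' => simp [Hybrid.src] at h
    | tollIn e' i' σ' => simp [Hybrid.src] at h
    | tollOut e' i' σ' =>
      simp only [Hybrid.src] at h
      split_ifs at h with h2
      simp only [Letter.pass.injEq] at h
      obtain ⟨rfl, rfl⟩ := h
      left
      cases σ' <;> cases h3 : H.act e' 0 <;> simp_all
    | con e' i' => simp [Hybrid.src] at h
    | loop e' i' j =>
      simp only [Hybrid.src] at h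
      rcases fin3_cases i' with rfl | rfl | rfl <;> cases j <;> simp at h <;> simp [h]
  · rintro (rfl | rfl | rfl) <;> simp [Hybrid.src]

lemma tgt_pass_ne (e : Eqn) (i : Fin 3) (hi : i ≠ 0) (w : Word Chord Eqn) :
    H.tgt w = .pass e i ↔ w = .tollIn e i (!H.act e i) := by
  constructor
  · intro h
    cases w with
    | chk c side σ' => simp [Hybrid.tgt] at h
    | tollIn e' i' σ' =>
      simp only [Hybrid.tgt] at h
      split_ifs at h with h2
      simp only [Letter.pass.injEq] at h
      obtain ⟨rfl, rfl⟩ := h
      cases σ' <;> cases h3 : H.act e' i' <;> simp_all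
    | tollOut e' i' σ' => simp [Hybrid.tgt] at h
    | con e' i' => simp [Hybrid.tgt] at h
    | loop e' i' j =>
      simp only [Hybrid.tgt] at h
      rcases fin3_cases i' with rfl | rfl | rfl <;> cases j <;> simp at h <;>
        exact absurd h.2.symm hi
  · rintro rfl
    simp only [Hybrid.tgt]
    cases h3 : H.act e i <;> simp

lemma src_pass_ne (e : Eqn) (i : Fin 3) (hi : i ≠ 0) (w : Word Chord Eqn) :
    H.src w = .pass e i ↔ w = .tollOut e i (!H.act e i) := by
  constructor
  · intro h
    cases w with
    | chk c side σ' => simp [Hybrid.src] at h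
    | tollIn e' i' σ' => simp [Hybrid.src] at h
    | tollOut e' i' σ' =>
      simp only [Hybrid.src] at h
      split_ifs at h with h2
      simp only [Letter.pass.injEq] at h
      obtain ⟨rfl, rfl⟩ := h
      cases σ' <;> cases h3 : H.act e' i' <;> simp_all
    | con e' i' => simp [Hybrid.src] at h
    | loop e' i' j =>
      simp only [Hybrid.src] at h
      rcases fin3_cases i' with rfl | rfl | rfl <;> cases j <;> simp at h <;>
        exact absurd h.2.symm hi
  · rintro rfl
    simp only [Hybrid.src]
    cases h3 : H.act e i <;> simp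

lemma tgt_mid0 (e : Eqn) (w : Word Chord Eqn) :
    H.tgt w = .mid e 0 ↔ w = .loop e 1 false := by
  constructor
  · intro h
    cases w with
    | chk c side σ' => simp [Hybrid.tgt] at h
    | tollIn e' i' σ' => simp only [Hybrid.tgt] at h; split_ifs at h
    | tollOut e' i' σ' => simp [Hybrid.tgt] at h
    | con e' i' => simp [Hybrid.tgt] at h
    | loop e' i' j =>
      simp only [Hybrid.tgt] at h
      rcases fin3_cases i' with rfl | rfl | rfl <;> cases j <;> simp at h
      simp [h]
  · rintro rfl; simp [Hybrid.tgt]

lemma src_mid0 (e : Eqn) (w : Word Chord Eqn) :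
    H.src w = .mid e 0 ↔ w = .loop e 2 false := by
  constructor
  · intro h
    cases w with
    | chk c side σ' => simp [Hybrid.src] at h
    | tollIn e' i' σ' => simp [Hybrid.src] at h
    | tollOut e' i' σ' => simp only [Hybrid.src] at h; split_ifs at h
    | con e' i' => simp [Hybrid.src] at h
    | loop e' i' j =>
      simp only [Hybrid.src] at h
      rcases fin3_cases i' with rfl | rfl | rfl <;> cases j <;> simp at h
      simp [h]
  · rintro rfl; simp [Hybrid.src]

lemma tgt_mid1 (e : Eqn) (w : Word Chord Eqn) :
    H.tgt w = .mid e 1 ↔ w = .loop e 0 false := by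
  constructor
  · intro h
    cases w with
    | chk c side σ' => simp [Hybrid.tgt] at h
    | tollIn e' i' σ' => simp only [Hybrid.tgt] at h; split_ifs at h
    | tollOut e' i' σ' => simp [Hybrid.tgt] at h
    | con e' i' => simp [Hybrid.tgt] at h
    | loop e' i' j =>
      simp only [Hybrid.tgt] at h
      rcases fin3_cases i' with rfl | rfl | rfl <;> cases j <;> simp at h
      simp [h]
  · rintro rfl; simp [Hybrid.tgt]

lemma src_mid1 (e : Eqn) (w : Word Chord Eqn) :
    H.src w = .mid e 1 ↔ w = .loop e 2 true := by
  constructor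
  · intro h
    cases w with
    | chk c side σ' => simp [Hybrid.src] at h
    | tollIn e' i' σ' => simp [Hybrid.src] at h
    | tollOut e' i' σ' => simp only [Hybrid.src] at h; split_ifs at h
    | con e' i' => simp [Hybrid.src] at h
    | loop e' i' j =>
      simp only [Hybrid.src] at h
      rcases fin3_cases i' with rfl | rfl | rfl <;> cases j <;> simp at h
      simp [h]
  · rintro rfl; simp [Hybrid.src]

lemma tgt_mid2 (e : Eqn) (w : Word Chord Eqn) :
    H.tgt w = .mid e 2 ↔ w = .loop e 0 true := by
  constructor
  · intro h
    cases w with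
    | chk c side σ' => simp [Hybrid.tgt] at h
    | tollIn e' i' σ' => simp only [Hybrid.tgt] at h; split_ifs at h
    | tollOut e' i' σ' => simp [Hybrid.tgt] at h
    | con e' i' => simp [Hybrid.tgt] at h
    | loop e' i' j =>
      simp only [Hybrid.tgt] at h
      rcases fin3_cases i' with rfl | rfl | rfl <;> cases j <;> simp at h
      simp [h]
  · rintro rfl; simp [Hybrid.tgt]

lemma src_mid2 (e : Eqn) (w : Word Chord Eqn) :
    H.src w = .mid e 2 ↔ w = .loop e 1 true := by
  constructor
  · intro h
    cases w with
    | chk c side σ' => simp [Hybrid.src] at h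
    | tollIn e' i' σ' => simp [Hybrid.src] at h
    | tollOut e' i' σ' => simp only [Hybrid.src] at h; split_ifs at h
    | con e' i' => simp [Hybrid.src] at h
    | loop e' i' j =>
      simp only [Hybrid.src] at h
      rcases fin3_cases i' with rfl | rfl | rfl <;> cases j <;> simp at h
      simp [h]
  · rintro rfl; simp [Hybrid.src]

end Vale.Agent.P333
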