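import Mathlib

/-! Abstract clause-flow systems: four-letter strings `w · next w`. -/

namespace Vale.Agent.P333

open Finset

/-- A clause-flow system on words `W` over letters `L`. -/
structure FlowSys (W L : Type) where
  src : W → L
  tgt : W → L
  next : Equiv.Perm W
  inj : ∀ a b, src a = src b → tgt a = tgt b → a = b
  no3 : ∀ a b, src b = tgt a → tgt b = src (next a) → src (next b) ≠ tgt (next a)

variable {W L : Type}

/-- The string of a word. -/
def FlowSys.str (S : FlowSys W L) (a : W) : List L :=
  [S.src a, S.tgt a, S.src (S.next a), S.tgt (S.next a)]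

lemma infix_pos {T s : List L} (h : s <:+: T) :
    ∃ p, p + s.length ≤ T.length ∧ ∀ i (hi : i < s.length), T[p + i]? = some s[i] := by
  obtain ⟨a, b, rfl⟩ := h
  refine ⟨a.length, by simp, fun i hi => ?_⟩
  rw [List.append_assoc, List.getElem?_append_right (by omega)]
  simp [List.getElem?_append_left, hi]

variable [Fintype W] [Fintype L] [DecidableEq W] [DecidableEq L]

/-- Number of words of `O` ending at `l`. -/
def FlowSys.inO (S : FlowSys W L) (O : Finset W) (l : L) : ℕ := (O.filter fun a => S.tgt a = l).card

/-- Number of words of `O` starting at `l`. -/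
def FlowSys.outO (S : FlowSys W L) (O : Finset W) (l : L) : ℕ := (O.filter fun a => S.src a = l).card

/-- Flow lower bound. -/
theorem FlowSys.lower (S : FlowSys W L) (T : List L) (hT : ∀ a, S.str a <:+: T) :
    ∃ O : Finset W,
      (∀ c : Finset W, c.Nonempty → (∀ a ∈ c, S.next a ∈ c) → ∃ a ∈ c, a ∈ O) ∧
      4 * Fintype.card W + 2 * O.card + ∑ l, Nat.dist (S.inO O l) (S.outO O l) ≤ 2 * T.length := by
  classical
  have hpos : ∀ a, ∃ p, p + 4 ≤ T.length ∧ T[p]? = some (S.src a) ∧ T[p+1]? = some (S.tgt a) ∧
      T[p+2]? = some (S.src (S.next a)) ∧ T[p+3]? = some (S.tgt (S.next a)) := by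
    intro a
    obtain ⟨p, h1, h2⟩ := infix_pos (hT a)
    refine ⟨p, by simpa [FlowSys.str] using h1, ?_, ?_, ?_, ?_⟩
    · simpa [FlowSys.str] using h2 0 (by simp [FlowSys.str])
    · simpa [FlowSys.str] using h2 1 (by simp [FlowSys.str])
    · simpa [FlowSys.str] using h2 2 (by simp [FlowSys.str])
    · simpa [FlowSys.str] using h2 3 (by simp [FlowSys.str])
  choose pos hlen h0 h1 h2 h3 using hpos
  have pinj : ∀ a b, pos a = pos b → a = b := by
    intro a b h
    apply S.inj
    · have := h0 a; rw [h, h0 b] at this; exact (Option.some.inj this).symm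
    · have := h1 a; rw [h, h1 b] at this; exact (Option.some.inj this).symm
  have hone : ∀ a b, pos b ≠ pos a + 1 := by
    intro a b h
    have e1 : S.src b = S.tgt a := by
      have := h0 b; rw [h, h1 a] at this; exact (Option.some.inj this).symm
    have e2 : S.tgt b = S.src (S.next a) := by
      have := h1 b; rw [h, show pos a + 1 + 1 = pos a + 2 from rfl, h2 a] at this
      exact (Option.some.inj this).symm
    have e3 : S.src (S.next b) = S.tgt (S.next a) := by
      have := h2 b; rw [h, show pos a + 1 + 2 = pos a + 3 from rfl, h3 a] at this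
      exact (Option.some.inj this).symm
    exact S.no3 a b e1 e2 e3
  have htwo : ∀ a b, pos b = pos a + 2 → b = S.next a := by
    intro a b h
    apply S.inj
    · have := h0 b; rw [h, h2 a] at this; exact (Option.some.inj this).symm
    · have := h1 b; rw [h, show pos a + 2 + 1 = pos a + 3 from rfl, h3 a] at this
      exact (Option.some.inj this).symm
  -- ends of chains
  set E : Finset W := univ.filter fun a => pos (S.next a) ≠ pos a + 2 with hE
  have hEmem : ∀ a, a ∈ E → ∀ b, pos b ≠ pos a + 2 := by
    intro a ha b hb
    have := htwo a b hb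
    subst this
    exact (mem_filter.1 ha).2 hb
  set J : Finset W := E.filter fun a => ∃ b, pos b = pos a + 3 with hJ
  have hJmem : ∀ a, a ∈ E \ J → ∀ b, pos b ≠ pos a + 3 := by
    intro a ha b hb
    rw [mem_sdiff] at ha
    exact ha.2 (mem_filter.2 ⟨ha.1, b, hb⟩)
  set O : Finset W := E.map S.next.toEmbedding with hO
  have hOcard : O.card = E.card := by simp [hO]
  have hOmem : ∀ a, a ∈ O ↔ S.next.symm a ∈ E := by
    intro a
    simp only [hO, mem_map, Equiv.coe_toEmbedding]
    constructor
    · rintro ⟨x, hx, rfl⟩; simpa using hx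
    · intro h; exact ⟨_, h, by simp⟩
  -- the counting of positions
  have hcount : 2 * Fintype.card W + E.card + (E \ J).card ≤ T.length := by
    let ι := (W ⊕ W) ⊕ ({a // a ∈ E} ⊕ {a // a ∈ E \ J})
    let F : ι → ℕ := fun x => match x with
      | Sum.inl (Sum.inl a) => pos a
      | Sum.inl (Sum.inr a) => pos a + 1
      | Sum.inr (Sum.inl a) => pos a.1 + 2
      | Sum.inr (Sum.inr a) => pos a.1 + 3
    have hFlt : ∀ x, F x < T.length := by
      intro x
      rcases x with (a | a) | (a | a)
      · have := hlen a; simp only [F]; omega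
      · have := hlen a; simp only [F]; omega
      · have := hlen a.1; simp only [F]; omega
      · have := hlen a.1; simp only [F]; omega
    have hFinj : Function.Injective F := by
      rintro ((a | a) | (a | a)) ((b | b) | (b | b)) h <;> simp only [F] at h
      · rw [pinj a b h]
      · exact absurd h (hone b a)
      · exact absurd h (hEmem b.1 b.2 a)
      · exact absurd h (hJmem b.1 b.2 a)
      · exact absurd h.symm (hone a b)
      · rw [pinj a b (by omega)]
      · exact absurd (by omega) (hone b.1 a)
      · exact absurd (by omega) (hEmem b.1 (mem_sdiff.1 b.2).1 a)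
      · exact absurd h.symm (hEmem a.1 a.2 b)
      · exact absurd (by omega) (hone a.1 b)
      · rw [Subtype.ext (pinj a.1 b.1 (by omega))]
      · exact absurd (by omega) (hone b.1 a.1)
      · exact absurd h.symm (hJmem a.1 a.2 b)
      · exact absurd (by omega) (hEmem a.1 (mem_sdiff.1 a.2).1 b)
      · exact absurd (by omega) (hone a.1 b.1)
      · rw [Subtype.ext (pinj a.1 b.1 (by omega))]
    have := Fintype.card_le_of_injective (fun x => (⟨F x, hFlt x⟩ : Fin T.length))
      (fun x y h => hFinj (by simpa using h))
    simp only [Fintype.card_fin, ι, Fintype.card_sum, Fintype.card_coe] at this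
    omega
  -- joins
  have hJle : ∀ l, 2 * (J.filter fun a => S.tgt (S.next a) = l).card
      + Nat.dist (S.inO O l) (S.outO O l) ≤ S.inO O l + S.outO O l := by
    intro l
    have hin : (J.filter fun a => S.tgt (S.next a) = l).card ≤ S.inO O l := by
      apply card_le_card_of_injOn S.next
      · intro a ha
        simp only [coe_filter, Set.mem_ofPred_eq, hJ, mem_filter] at ha
        simp only [coe_filter, Set.mem_ofPred_eq]
        refine ⟨(hOmem _).2 (by simpa using ha.1.1), ha.2⟩
      · exact S.next.injective.injOn
    have hg : ∀ a, a ∈ J → ∃ b, pos b = pos a + 3 := fun a ha => (mem_filter.1 ha).2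
    let g : W → W := fun a => if h : a ∈ J then (hg a h).choose else a
    have hgp : ∀ a, a ∈ J → pos (g a) = pos a + 3 := by
      intro a ha
      simp only [g, ha, dif_pos]
      exact (hg a ha).choose_spec
    have hout : (J.filter fun a => S.tgt (S.next a) = l).card ≤ S.outO O l := by
      apply card_le_card_of_injOn g
      · intro a ha
        simp only [coe_filter, Set.mem_ofPred_eq] at ha
        simp only [coe_filter, Set.mem_ofPred_eq]
        have haJ := ha.1
        have hp := hgp a haJ
        refine ⟨(hOmem _).2 ?_, ?_⟩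
        · refine mem_filter.2 ⟨mem_univ _, ?_⟩
          simp only [Equiv.apply_symm_apply]
          intro h
          exact hone a (S.next.symm (g a)) (by omega)
        · have := h0 (g a)
          rw [hp, h3 a] at this
          rw [← ha.2]; exact (Option.some.inj this).symm
      · intro a ha b hb hab
        simp only [coe_filter, Set.mem_ofPred_eq] at ha hb
        have h1' := hgp a ha.1
        have h2' := hgp b hb.1
        rw [hab] at h1'
        exact pinj a b (by omega)
    unfold Nat.dist
    omega
  have hsumIn : ∑ l, S.inO O l = O.card := by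
    simpa [FlowSys.inO] using (card_eq_sum_card_fiberwise (f := S.tgt) (s := O) (t := univ)
      (fun _ _ => mem_coe.2 (mem_univ _))).symm
  have hsumOut : ∑ l, S.outO O l = O.card := by
    simpa [FlowSys.outO] using (card_eq_sum_card_fiberwise (f := S.src) (s := O) (t := univ)
      (fun _ _ => mem_coe.2 (mem_univ _))).symm
  have hsumJ : ∑ l, (J.filter fun a => S.tgt (S.next a) = l).card = J.card := by
    simpa using (card_eq_sum_card_fiberwise (f := fun a => S.tgt (S.next a)) (s := J) (t := univ)
      (fun _ _ => mem_coe.2 (mem_univ _))).symm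
  have hsum := Finset.sum_le_sum (s := univ) (fun l _ => hJle l)
  simp only [sum_add_distrib, ← mul_sum, hsumIn, hsumOut, hsumJ] at hsum
  have hsd : (E \ J).card + J.card = E.card := by
    apply card_sdiff_add_card_eq_card
    exact filter_subset _ _
  refine ⟨O, ?_, by omega⟩
  -- hitting
  intro c hc hclosed
  by_contra hno
  push Not at hno
  obtain ⟨a, ha, hmax⟩ := exists_max_image c pos hc
  have hna := hclosed a ha
  have hnotO := hno _ hna
  have hnotE : a ∉ E := by
    intro h
    apply hnotO
    rw [hOmem]
    simpa using h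
  have : pos (S.next a) = pos a + 2 := by
    by_contra h
    exact hnotE (mem_filter.2 ⟨mem_univ _, h⟩)
  have := hmax _ hna
  omega

/-- Trail along the clause of a word. -/
def FlowSys.tr (S : FlowSys W L) : W → ℕ → List L
  | a, 0 => [S.src a, S.tgt a]
  | a, k + 1 => S.src a :: S.tgt a :: FlowSys.tr S (S.next a) k

/-- Number of positions where consecutive words do not chain. -/
def FlowSys.breaks (S : FlowSys W L) : List W → ℕ
  | [] => 0
  | [_] => 0
  | a :: b :: R => (if S.tgt a = S.src b then 0 else 1) + FlowSys.breaks S (b :: R)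

omit [Fintype W] [Fintype L] [DecidableEq W] [DecidableEq L] in
lemma FlowSys.tr_length (S : FlowSys W L) (a : W) (k : ℕ) : (S.tr a k).length = 2 * k + 2 := by
  induction k generalizing a with
  | zero => rfl
  | succ k ih => simp [FlowSys.tr, ih]; omega

omit [Fintype W] [Fintype L] [DecidableEq W] [DecidableEq L] in
lemma FlowSys.tr_head (S : FlowSys W L) (a : W) (k : ℕ) :
    ∃ U, S.tr a k = S.src a :: S.tgt a :: U := by
  cases k with
  | zero => exact ⟨[], rfl⟩
  | succ k => exact ⟨_, rfl⟩

omit [Fintype W] [Fintype L] [DecidableEq W] [DecidableEq L] in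
lemma FlowSys.tr_last (S : FlowSys W L) (a : W) (k : ℕ) :
    ∃ U, S.tr a k = U ++ [S.tgt ((S.next^[k]) a)] := by
  induction k generalizing a with
  | zero => exact ⟨[S.src a], rfl⟩
  | succ k ih =>
    obtain ⟨U, hU⟩ := ih (S.next a)
    refine ⟨S.src a :: S.tgt a :: U, ?_⟩
    simp [FlowSys.tr, hU]

omit [Fintype W] [Fintype L] [DecidableEq W] [DecidableEq L] in
lemma FlowSys.tr_infix (S : FlowSys W L) (a : W) (k j : ℕ) (hj : j < k) :
    S.str ((S.next^[j]) a) <:+: S.tr a k := by
  induction k generalizing a j with
  | zero => omega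
  | succ k ih =>
    cases j with
    | zero =>
      obtain ⟨U, hU⟩ := S.tr_head (S.next a) k
      refine ⟨[], U, ?_⟩
      simp [FlowSys.tr, FlowSys.str, hU]
    | succ j =>
      have := ih (S.next a) j (by omega)
      rw [Function.iterate_succ_apply]
      refine this.trans ?_
      exact ⟨[S.src a, S.tgt a], [], by simp [FlowSys.tr]⟩

omit [Fintype W] [Fintype L] [DecidableEq W] in
/-- Flow upper bound: gluing the trails of the words in a list. -/
theorem FlowSys.upper (S : FlowSys W L) (k : W → ℕ) (hk : ∀ a, (S.next^[k a]) a = a) (R : List W) :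
    ∃ T : List L, (∀ a ∈ R, ∀ j < k a, S.str ((S.next^[j]) a) <:+: T) ∧
      T.length ≤ 1 + (R.map fun a => 2 * k a + 1).sum + S.breaks R ∧
      (∀ a R', R = a :: R' → ∃ T', T = S.src a :: T') := by
  induction R with
  | nil => exact ⟨[], by simp, by simp, by simp⟩
  | cons a R' ih =>
    obtain ⟨T', hcov, hlen, hhead⟩ := ih
    obtain ⟨U0, hU0⟩ := S.tr_head a (k a)
    obtain ⟨U1, hU1⟩ := S.tr_last a (k a)
    rw [hk a] at hU1
    have hinfA : ∀ j < k a, S.str ((S.next^[j]) a) <:+: S.tr a (k a) :=
      fun j hj => S.tr_infix a (k a) j hj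
    cases R' with
    | nil =>
      refine ⟨S.tr a (k a), ?_, ?_, ?_⟩
      · intro b hb j hj
        simp only [List.mem_singleton] at hb
        subst hb
        exact hinfA j hj
      · rw [S.tr_length]; simp [FlowSys.breaks]; omega
      · intro b R2 h
        simp only [List.cons.injEq] at h
        obtain ⟨rfl, _⟩ := h
        exact ⟨_, hU0⟩
    | cons b R2 =>
      obtain ⟨T2, hT2⟩ := hhead b R2 rfl
      by_cases hjoin : S.tgt a = S.src b
      · refine ⟨S.tr a (k a) ++ T2, ?_, ?_, ?_⟩
        · intro c hc j hj
          rcases List.mem_cons.1 hc with rfl | hc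
          · exact (hinfA j hj).trans ⟨[], T2, by simp⟩
          · refine (hcov c hc j hj).trans ?_
            rw [hU1, hT2, hjoin]
            exact ⟨U1, [], by simp⟩
        · have h2 := S.tr_length a (k a)
          rw [List.length_append, h2]
          have h3 : T'.length = T2.length + 1 := by rw [hT2]; simp
          simp only [List.map_cons, List.sum_cons, FlowSys.breaks, hjoin, if_true] at hlen ⊢
          omega
        · intro c R3 h
          simp only [List.cons.injEq] at h
          obtain ⟨rfl, _⟩ := h
          exact ⟨_, by rw [hU0]; rfl⟩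
      · refine ⟨S.tr a (k a) ++ T', ?_, ?_, ?_⟩
        · intro c hc j hj
          rcases List.mem_cons.1 hc with rfl | hc
          · exact (hinfA j hj).trans ⟨[], T', by simp⟩
          · exact (hcov c hc j hj).trans ⟨S.tr a (k a), [], by simp⟩
        · have h2 := S.tr_length a (k a)
          rw [List.length_append, h2]
          simp only [List.map_cons, List.sum_cons, FlowSys.breaks, hjoin, if_false] at hlen ⊢
          omega
        · intro c R3 h
          simp only [List.cons.injEq] at h
          obtain ⟨rfl, _⟩ := h
          exact ⟨_, by rw [hU0]; rfl⟩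

end Vale.Agent.P333
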