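import Mathlib

/-! Finite local inequalities behind the soundness of the reduction. -/

namespace Vale.Agent.P333

/-- Bit of a Boolean. -/
def bb : Bool → ℕ
  | true => 1
  | false => 0

/-- Rounding of a pair of arc bits, with a default value. -/
def rnd (a0 a1 t : Bool) : Bool :=
  if a0 && !a1 then false else if a1 && !a0 then true else t

/-- The value at route `τ`. -/
def pick (τ a0 a1 : Bool) : Bool := if τ then a1 else a0

/-- Distance of naturals, in a form convenient for kernel evaluation. -/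
def dd (a b : ℕ) : ℕ := a - b + (b - a)

lemma bb_le_one (x : Bool) : bb x ≤ 1 := by cases x <;> decide

/-- Wheel edge: two rounded values differ for at most the imbalance of the edge letters. -/
lemma edge_bits : ∀ a0 a1 b0 b1 : Bool,
    bb (rnd a0 a1 false != rnd b0 b1 false) + bb (rnd a0 a1 true != rnd b0 b1 true) ≤
      dd (bb a0) (bb b0) + dd (bb a1) (bb b1) := by
  decide

/-- Chord. -/
lemma chord_bits : ∀ a0 a1 b0 b1 : Bool, (a0 || b1) = true → (a1 || b0) = true →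
    bb (rnd a0 a1 false != rnd b0 b1 false) + bb (rnd a0 a1 true != rnd b0 b1 true) + 4 ≤
      2 * (bb a0 + bb a1 + bb b0 + bb b1) := by
  decide

/-- Disagreement count of a contact. -/
def dis (p0 p1 n0 n1 : Bool) : ℕ :=
  bb (rnd p0 p1 false != rnd n0 n1 false) + bb (rnd p0 p1 true != rnd n0 n1 true)

/-- The contact is a clean read of `!o`. -/
def clean (p0 p1 n0 n1 o : Bool) : Bool :=
  (p0 == o) && (p1 == !o) && (n0 == o) && (n1 == !o)

/-- The two tolls are definite and opposite. -/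
def never (p0 p1 n0 n1 : Bool) : Bool :=
  (p0 && !p1 && !n0 && n1) || (!p0 && p1 && n0 && !n1)

/-- Neither clean nor opposite. -/
def nsb (p0 p1 n0 n1 o : Bool) : Bool := !(clean p0 p1 n0 n1 o || never p0 p1 n0 n1)

/-- A contact of the second or third position (active route `false`). -/
lemma contactY : ∀ p0 p1 n0 n1 o : Bool, (p0 || p1) = true → (n0 || n1) = true →
    dis p0 p1 n0 n1 + 2 * bb (nsb p0 p1 n0 n1 o) + 4 ≤
      2 * (bb p0 + bb p1 + bb n0 + bb n1) + dd (bb p0) (bb o) + dd (bb o) (bb n0) +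
        dd (bb p1) (bb n1) := by
  decide

/-- Number of `t` for which the first contact agrees and the parity is violated. -/
def badX (r r1 r2 p0 p1 n0 n1 : Bool) : ℕ :=
  bb ((rnd p0 p1 false == rnd n0 n1 false) && (xor (xor (rnd p0 p1 false) r1) r2 != r)) +
  bb ((rnd p0 p1 true == rnd n0 n1 true) && (xor (xor (rnd p0 p1 true) r1) r2 != r))

set_option maxRecDepth 100000 in
/-- The contact of the first position with the loops of the equation. -/
lemma contactX : ∀ r p0 p1 n0 n1 o c1 d1 b1 d2 b2 c2 o1 o2 : Bool,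
    (p0 || p1) = true → (n0 || n1) = true → (o || c1 || d1) = true →
    (o1 || b1 || d2) = true → (o2 || b2 || c2) = true →
    dis p0 p1 n0 n1 + badX r (!o1) (!o2) p0 p1 n0 n1 + 10 ≤
      2 * (bb p0 + bb p1 + bb n0 + bb n1) +
      2 * (bb o + bb c1 + bb d1 + bb o1 + bb b1 + bb d2 + bb o2 + bb b2 + bb c2) +
      dd (bb (pick r p0 p1)) (bb o) +
      dd (bb o + bb b2) (bb (pick r n0 n1) + bb b1) +
      dd (bb (pick (!r) p0 p1) + bb d2 + bb c2) (bb (pick (!r) n0 n1) + bb c1 + bb d1) +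
      dd (bb b1) (bb b2) + dd (bb c1) (bb c2) + dd (bb d1) (bb d2) := by
  decide

/-- The parity equation is violated although all three contacts agree. -/
def badAt (r a0 c0 a1 c1 a2 c2 : Bool) : ℕ :=
  bb ((a0 == c0) && (a1 == c1) && (a2 == c2) && (xor (xor a0 a1) a2 != r))

/-- Best value of the first contact. -/
def best0 (r a0 c0 a1 c1 a2 c2 : Bool) : Bool :=
  let _ := c2
  if a0 != c0 then xor (xor r a1) a2 else a0

/-- Best value of the second contact. -/
def best1 (r a0 c0 a1 c1 a2 c2 : Bool) : Bool :=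
  let _ := c2
  if (a0 == c0) && (a1 != c1) then xor (xor r a0) a2 else a1

/-- Best value of the third contact. -/
def best2 (r a0 c0 a1 c1 a2 c2 : Bool) : Bool :=
  if (a0 == c0) && (a1 == c1) && (a2 != c2) then xor (xor r a0) a1 else a2

set_option maxRecDepth 100000 in
lemma best_cost : ∀ r a0 c0 a1 c1 a2 c2 : Bool,
    bb (best0 r a0 c0 a1 c1 a2 c2 != a0) + bb (best0 r a0 c0 a1 c1 a2 c2 != c0) +
    (bb (best1 r a0 c0 a1 c1 a2 c2 != a1) + bb (best1 r a0 c0 a1 c1 a2 c2 != c1)) +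
    (bb (best2 r a0 c0 a1 c1 a2 c2 != a2) + bb (best2 r a0 c0 a1 c1 a2 c2 != c2)) +
    bb (xor (xor (best0 r a0 c0 a1 c1 a2 c2) (best1 r a0 c0 a1 c1 a2 c2))
      (best2 r a0 c0 a1 c1 a2 c2) != r) =
    bb (a0 != c0) + bb (a1 != c1) + bb (a2 != c2) + badAt r a0 c0 a1 c1 a2 c2 := by
  decide

lemma class_y : ∀ p0 p1 n0 n1 o : Bool, nsb p0 p1 n0 n1 o = true ∨
    (∀ t, (rnd p0 p1 t == rnd n0 n1 t) = false) ∨
    (∀ t, rnd p0 p1 t = !o ∧ rnd n0 n1 t = !o) := by
  decide

lemma badAt_clean : ∀ r a0 c0 x y : Bool,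
    badAt r a0 c0 x x y y = bb ((a0 == c0) && (xor (xor a0 x) y != r)) := by
  decide

lemma sum8_le (g : Bool → Bool → Bool → ℕ) (h : ∀ a b c, g a b c ≤ 1) :
    ∑ a : Bool, ∑ b : Bool, ∑ c : Bool, g a b c ≤ 8 := by
  simp only [Fintype.sum_bool]
  have h1 := h true true true
  have h2 := h true true false
  have h3 := h true false true
  have h4 := h true false false
  have h5 := h false true true
  have h6 := h false true false
  have h7 := h false false true
  have h8 := h false false false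
  omega

lemma sum_bad (r px0 px1 nx0 nx1 py0 py1 ny0 ny1 o1 pz0 pz1 nz0 nz1 o2 : Bool) :
    ∑ t0 : Bool, ∑ t1 : Bool, ∑ t2 : Bool,
      badAt r (rnd px0 px1 t0) (rnd nx0 nx1 t0) (rnd py0 py1 t1) (rnd ny0 ny1 t1)
        (rnd pz0 pz1 t2) (rnd nz0 nz1 t2) ≤
      4 * badX r (!o1) (!o2) px0 px1 nx0 nx1 + 8 * bb (nsb py0 py1 ny0 ny1 o1) +
        8 * bb (nsb pz0 pz1 nz0 nz1 o2) := by
  have h8 := sum8_le (fun t0 t1 t2 =>
      badAt r (rnd px0 px1 t0) (rnd nx0 nx1 t0) (rnd py0 py1 t1) (rnd ny0 ny1 t1)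
        (rnd pz0 pz1 t2) (rnd nz0 nz1 t2)) (fun _ _ _ => bb_le_one _)
  rcases class_y py0 py1 ny0 ny1 o1 with hy | hy | hy
  · rw [hy]; simp only [bb]; omega
  · have : ∀ t0 t1 t2, badAt r (rnd px0 px1 t0) (rnd nx0 nx1 t0) (rnd py0 py1 t1) (rnd ny0 ny1 t1)
        (rnd pz0 pz1 t2) (rnd nz0 nz1 t2) = 0 := by
      intro t0 t1 t2
      simp [badAt, hy t1, bb]
    simp [this]
  · rcases class_y pz0 pz1 nz0 nz1 o2 with hz | hz | hz
    · rw [hz]; simp only [bb]; omega
    · have : ∀ t0 t1 t2, badAt r (rnd px0 px1 t0) (rnd nx0 nx1 t0) (rnd py0 py1 t1) (rnd ny0 ny1 t1)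
          (rnd pz0 pz1 t2) (rnd nz0 nz1 t2) = 0 := by
        intro t0 t1 t2
        simp [badAt, hz t2, bb]
      simp [this]
    · have : ∀ t0 t1 t2, badAt r (rnd px0 px1 t0) (rnd nx0 nx1 t0) (rnd py0 py1 t1) (rnd ny0 ny1 t1)
          (rnd pz0 pz1 t2) (rnd nz0 nz1 t2) =
          bb ((rnd px0 px1 t0 == rnd nx0 nx1 t0) && (xor (xor (rnd px0 px1 t0) (!o1)) (!o2) != r)) := by
        intro t0 t1 t2
        rw [(hy t1).1, (hy t1).2, (hz t2).1, (hz t2).2, badAt_clean]
      simp only [this, Fintype.sum_bool, badX]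
      omega

/-- The full local inequality of an equation. -/
lemma local_eq (r p00 p01 n00 n01 o0 c1 d1 p10 p11 n10 n11 o1 b1 d2 p20 p21 n20 n21 o2 b2 c2 : Bool)
    (hp0 : (p00 || p01) = true) (hn0 : (n00 || n01) = true)
    (hp1 : (p10 || p11) = true) (hn1 : (n10 || n11) = true)
    (hp2 : (p20 || p21) = true) (hn2 : (n20 || n21) = true)
    (hc0 : (o0 || c1 || d1) = true) (hc1 : (o1 || b1 || d2) = true) (hc2 : (o2 || b2 || c2) = true) :
    4 * dis p00 p01 n00 n01 + 4 * dis p10 p11 n10 n11 + 4 * dis p20 p21 n20 n21 +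
      (∑ t0 : Bool, ∑ t1 : Bool, ∑ t2 : Bool,
        badAt r (rnd p00 p01 t0) (rnd n00 n01 t0) (rnd p10 p11 t1) (rnd n10 n11 t1)
          (rnd p20 p21 t2) (rnd n20 n21 t2)) + 72 ≤
      4 * (2 * (bb p00 + bb p01 + bb n00 + bb n01) +
        2 * (bb o0 + bb c1 + bb d1 + bb o1 + bb b1 + bb d2 + bb o2 + bb b2 + bb c2) +
        dd (bb (pick r p00 p01)) (bb o0) +
        dd (bb o0 + bb b2) (bb (pick r n00 n01) + bb b1) +
        dd (bb (pick (!r) p00 p01) + bb d2 + bb c2) (bb (pick (!r) n00 n01) + bb c1 + bb d1) +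
        dd (bb b1) (bb b2) + dd (bb c1) (bb c2) + dd (bb d1) (bb d2) +
        (2 * (bb p10 + bb p11 + bb n10 + bb n11) + dd (bb p10) (bb o1) + dd (bb o1) (bb n10) +
          dd (bb p11) (bb n11)) +
        (2 * (bb p20 + bb p21 + bb n20 + bb n21) + dd (bb p20) (bb o2) + dd (bb o2) (bb n20) +
          dd (bb p21) (bb n21))) := by
  have hx := contactX r p00 p01 n00 n01 o0 c1 d1 b1 d2 b2 c2 o1 o2 hp0 hn0 hc0 hc1 hc2
  have hy := contactY p10 p11 n10 n11 o1 hp1 hn1
  have hz := contactY p20 p21 n20 n21 o2 hp2 hn2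
  have hb := sum_bad r p00 p01 n00 n01 p10 p11 n10 n11 o1 p20 p21 n20 n21 o2
  omega

end Vale.Agent.P333
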