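import Vale.Agent.P333.Sound

set_option linter.unusedSectionVars false

namespace Vale.Agent.P333

open Finset

variable {Chord Eqn Wheel : Type} [Fintype Chord] [Fintype Eqn] [Fintype Wheel]
  [DecidableEq Eqn]

/-- Lower bound: a superstring yields an assignment. -/
theorem lower_main (H : Hybrid Chord Eqn Wheel) (T : List (Letter Chord Eqn))
    (hT : ∀ w, H.string w <:+: T) :
    ∃ α, 10 * Fintype.card Chord + 51 * Fintype.card Eqn + H.unsat α ≤ T.length := by
  classical
  obtain ⟨O, hit, hle⟩ := H.flow.lower T (fun a => hT a)
  have mem_or : ∀ (a b : Word Chord Eqn), (a ∈ O ∨ b ∈ O) → (memB O a || memB O b) = true := by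
    intro a b h
    rcases h with h | h <;> simp [memB, h]
  have hC : ∀ c σ, (memB O (.chk c false σ) || memB O (.chk c true (!σ))) = true := by
    intro c σ
    apply mem_or
    obtain ⟨a, ha, hO⟩ := hit {.chk c false σ, .chk c true (!σ)} (by simp) (by
      intro a ha
      simp only [mem_insert, mem_singleton] at ha ⊢
      rcases ha with rfl | rfl
      · right; rfl
      · left
        show Word.chk c (!true) (!!σ) = _
        simp)
    simp only [mem_insert, mem_singleton] at ha
    rcases ha with rfl | rfl
    · exact Or.inl hO
    · exact Or.inr hO
  have hT1 : ∀ e i, (memB O (.tollIn e i false) || memB O (.tollIn e i true)) = true := by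
    intro e i
    apply mem_or
    obtain ⟨a, ha, hO⟩ := hit {.tollIn e i false, .tollIn e i true} (by simp) (by
      intro a ha
      simp only [mem_insert, mem_singleton] at ha ⊢
      rcases ha with rfl | rfl
      · right; rfl
      · left; rfl)
    simp only [mem_insert, mem_singleton] at ha
    rcases ha with rfl | rfl
    · exact Or.inl hO
    · exact Or.inr hO
  have hT2 : ∀ e i, (memB O (.tollOut e i false) || memB O (.tollOut e i true)) = true := by
    intro e i
    apply mem_or
    obtain ⟨a, ha, hO⟩ := hit {.tollOut e i false, .tollOut e i true} (by simp) (by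
      intro a ha
      simp only [mem_insert, mem_singleton] at ha ⊢
      rcases ha with rfl | rfl
      · right; rfl
      · left; rfl)
    simp only [mem_insert, mem_singleton] at ha
    rcases ha with rfl | rfl
    · exact Or.inl hO
    · exact Or.inr hO
  have hE : ∀ e i, (memB O (.con e i) || memB O (.loop e i false) || memB O (.loop e i true)) = true := by
    intro e i
    obtain ⟨a, ha, hO⟩ := hit {.con e i, .loop e i false, .loop e i true} (by simp) (by
      intro a ha
      simp only [mem_insert, mem_singleton] at ha ⊢
      rcases ha with rfl | rfl | rfl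
      · right; left; rfl
      · right; right; rfl
      · left; rfl)
    simp only [mem_insert, mem_singleton] at ha
    rcases ha with rfl | rfl | rfl <;> simp [memB, hO]
  obtain ⟨α, hα⟩ := sound H O hC hT1 hT2 hE
  refine ⟨α, ?_⟩
  have hcard := card_word (Chord := Chord) (Eqn := Eqn)
  rw [hcard] at hle
  omega

end Vale.Agent.P333
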