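import Vale.Agent.P333.Sums
import Vale.Agent.P333.Avg

set_option linter.unusedSectionVars false

namespace Vale.Agent.P333

open Finset

variable {Chord Eqn Wheel : Type}

/-- Rounded value at the entry of a block. -/
def xin (m : Word Chord Eqn → Bool) (v : Node Chord Eqn) (t : Bool) : Bool :=
  rnd (m (Word.first v false)) (m (Word.first v true)) t

/-- Rounded value at the exit of a block. -/
def xout (m : Word Chord Eqn → Bool) (v : Node Chord Eqn) (t : Bool) : Bool :=
  rnd (m (Word.last v false)) (m (Word.last v true)) t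

/-- The assignment obtained from membership bits and wheel bits. -/
def roundA (H : Hybrid Chord Eqn Wheel) (m : Word Chord Eqn → Bool) (s : Wheel → Bool) :
    Node Chord Eqn → Bool
  | Sum.inl x => xin m (Sum.inl x) (s (H.wheel (Sum.inl x)))
  | Sum.inr (e, i) =>
    let a := fun k : Fin 3 => xin m (Sum.inr (e, k)) (s (H.wheel (Sum.inr (e, k))))
    let c := fun k : Fin 3 => xout m (Sum.inr (e, k)) (s (H.wheel (Sum.inr (e, k))))
    if i = 0 then best0 (H.rhs e) (a 0) (c 0) (a 1) (c 1) (a 2) (c 2)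
    else if i = 1 then best1 (H.rhs e) (a 0) (c 0) (a 1) (c 1) (a 2) (c 2)
    else best2 (H.rhs e) (a 0) (c 0) (a 1) (c 1) (a 2) (c 2)

/-- Cut on a wheel edge. -/
def edgeCut (H : Hybrid Chord Eqn Wheel) (m : Word Chord Eqn → Bool) (v : Node Chord Eqn)
    (t : Bool) : ℕ :=
  bb (xout m v t != xin m (H.succ v) t)

/-- Cut on a chord. -/
def chordCut (m : Word Chord Eqn → Bool) (c : Chord) (t : Bool) : ℕ :=
  bb (xin m (Sum.inl (c, false)) t != xin m (Sum.inl (c, true)) t)

/-- Cost at an equation. -/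
def eqCost (H : Hybrid Chord Eqn Wheel) (m : Word Chord Eqn → Bool) (e : Eqn)
    (t0 t1 t2 : Bool) : ℕ :=
  bb (xin m (Sum.inr (e, 0)) t0 != xout m (Sum.inr (e, 0)) t0) +
  bb (xin m (Sum.inr (e, 1)) t1 != xout m (Sum.inr (e, 1)) t1) +
  bb (xin m (Sum.inr (e, 2)) t2 != xout m (Sum.inr (e, 2)) t2) +
  badAt (H.rhs e) (xin m (Sum.inr (e, 0)) t0) (xout m (Sum.inr (e, 0)) t0)
    (xin m (Sum.inr (e, 1)) t1) (xout m (Sum.inr (e, 1)) t1)
    (xin m (Sum.inr (e, 2)) t2) (xout m (Sum.inr (e, 2)) t2)

variable [Fintype Chord] [Fintype Eqn]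

lemma hind : ∀ a b : Bool, (if a ≠ b then 1 else 0) = bb (a != b) := by decide

lemma tri_bb : ∀ a b c d : Bool, bb (a != d) ≤ bb (a != b) + bb (b != c) + bb (d != c) := by decide

lemma unsat_le (H : Hybrid Chord Eqn Wheel) (m : Word Chord Eqn → Bool) (s : Wheel → Bool) :
    H.unsat (roundA H m s) ≤ ∑ v, edgeCut H m v (s (H.wheel v)) +
      ∑ c, chordCut m c (s (H.wheel (Sum.inl (c, false)))) +
      ∑ e, eqCost H m e (s (H.wheel (Sum.inr (e, 0)))) (s (H.wheel (Sum.inr (e, 1))))
        (s (H.wheel (Sum.inr (e, 2)))) := by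
  set α := roundA H m s with hα
  unfold Hybrid.unsat
  rw [card_filter, card_filter, card_filter]
  simp only [hind]
  have hcircle : ∑ v, bb (α v != α (H.succ v)) ≤
      ∑ v, (bb (α v != xout m v (s (H.wheel v))) + edgeCut H m v (s (H.wheel v)) +
        bb (α (H.succ v) != xin m (H.succ v) (s (H.wheel (H.succ v))))) := by
    apply sum_le_sum
    intro v _
    rw [H.wheel_succ v]
    exact tri_bb _ _ _ _
  have hsucc : ∑ v, bb (α (H.succ v) != xin m (H.succ v) (s (H.wheel (H.succ v)))) =
      ∑ v, bb (α v != xin m v (s (H.wheel v))) :=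
    Equiv.sum_comp H.succ (fun v => bb (α v != xin m v (s (H.wheel v))))
  rw [sum_add_distrib, sum_add_distrib, hsucc] at hcircle
  have hsplit : ∑ v, bb (α v != xout m v (s (H.wheel v))) +
      ∑ v, bb (α v != xin m v (s (H.wheel v))) =
      ∑ e : Eqn, ∑ i : Fin 3, (bb (α (Sum.inr (e, i)) !=
          xin m (Sum.inr (e, i)) (s (H.wheel (Sum.inr (e, i))))) +
        bb (α (Sum.inr (e, i)) != xout m (Sum.inr (e, i)) (s (H.wheel (Sum.inr (e, i)))))) := by
    rw [← sum_add_distrib, Fintype.sum_sum_type, Fintype.sum_prod_type (f := fun y : Eqn × Fin 3 => _)]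
    have hzero : ∀ x : Chord × Bool, bb (α (Sum.inl x) != xout m (Sum.inl x) (s (H.wheel (Sum.inl x)))) +
        bb (α (Sum.inl x) != xin m (Sum.inl x) (s (H.wheel (Sum.inl x)))) = 0 := by
      rintro ⟨c, side⟩
      have h1 : α (Sum.inl (c, side)) = xin m (Sum.inl (c, side)) (s (H.wheel (Sum.inl (c, side)))) := rfl
      have h2 : xout m (Sum.inl (c, side)) (s (H.wheel (Sum.inl (c, side)))) =
          xin m (Sum.inl (c, side)) (s (H.wheel (Sum.inl (c, side)))) := rfl
      rw [h2, h1]
      simp [bb]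
    simp only [hzero, sum_const_zero, zero_add]
    apply sum_congr rfl
    intro e _
    apply sum_congr rfl
    intro i _
    ring
  have hchord : ∑ c, bb (α (Sum.inl (c, false)) != α (Sum.inl (c, true))) =
      ∑ c, chordCut m c (s (H.wheel (Sum.inl (c, false)))) := by
    apply sum_congr rfl
    intro c _
    have h1 : α (Sum.inl (c, false)) = xin m (Sum.inl (c, false)) (s (H.wheel (Sum.inl (c, false)))) := rfl
    have h2 : α (Sum.inl (c, true)) = xin m (Sum.inl (c, true)) (s (H.wheel (Sum.inl (c, true)))) := rfl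
    rw [h1, h2, ← H.chord_wheel c]
    rfl
  have heq : ∀ e : Eqn, ∑ i : Fin 3, (bb (α (Sum.inr (e, i)) !=
        xin m (Sum.inr (e, i)) (s (H.wheel (Sum.inr (e, i))))) +
      bb (α (Sum.inr (e, i)) != xout m (Sum.inr (e, i)) (s (H.wheel (Sum.inr (e, i)))))) +
      bb (xor (xor (α (Sum.inr (e, 0))) (α (Sum.inr (e, 1)))) (α (Sum.inr (e, 2))) != H.rhs e) =
      eqCost H m e (s (H.wheel (Sum.inr (e, 0)))) (s (H.wheel (Sum.inr (e, 1))))
        (s (H.wheel (Sum.inr (e, 2)))) := by
    intro e
    rw [Fin.sum_univ_three]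
    have h0 : α (Sum.inr (e, 0)) = _ := rfl
    have h1 : α (Sum.inr (e, 1)) = _ := rfl
    have h2 : α (Sum.inr (e, 2)) = _ := rfl
    rw [h0, h1, h2]
    exact best_cost _ _ _ _ _ _ _
  have hsumeq := sum_congr (rfl : (univ : Finset Eqn) = univ) (fun e _ => heq e)
  rw [sum_add_distrib] at hsumeq
  omega

section main

variable [DecidableEq Eqn] [DecidableEq (Word Chord Eqn)] [DecidableEq (Letter Chord Eqn)]
variable (H : Hybrid Chord Eqn Wheel) (O : Finset (Word Chord Eqn))

lemma in_edge (v : Node Chord Eqn) (σ : Bool) :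
    H.flow.inO O (.edge v σ) = bb (memB O (Word.last v σ)) :=
  card_filter_one O _ _ (fun w => tgt_edge H v σ w)

lemma out_edge (v : Node Chord Eqn) (σ : Bool) :
    H.flow.outO O (.edge v σ) = bb (memB O (Word.first (H.succ v) σ)) :=
  card_filter_one O _ _ (fun w => src_edge H v σ w)

lemma in_act1 (e : Eqn) (i : Fin 3) :
    H.flow.inO O (.act1 e i) = bb (memB O (.tollIn e i (H.act e i))) :=
  card_filter_one O _ _ (fun w => tgt_act1 H e i w)

lemma out_act1 (e : Eqn) (i : Fin 3) :
    H.flow.outO O (.act1 e i) = bb (memB O (.con e i)) :=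
  card_filter_one O _ _ (fun w => src_act1 H e i w)

lemma in_act2_0 (e : Eqn) :
    H.flow.inO O (.act2 e 0) = bb (memB O (.con e 0)) + bb (memB O (.loop e 2 false)) :=
  card_filter_two O _ _ _ (by simp) (fun w => tgt_act2_0 H e w)

lemma out_act2_0 (e : Eqn) :
    H.flow.outO O (.act2 e 0) =
      bb (memB O (.tollOut e 0 (H.act e 0))) + bb (memB O (.loop e 1 false)) :=
  card_filter_two O _ _ _ (by simp) (fun w => src_act2_0 H e w)

lemma in_act2_ne (e : Eqn) (i : Fin 3) (hi : i ≠ 0) :
    H.flow.inO O (.act2 e i) = bb (memB O (.con e i)) :=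
  card_filter_one O _ _ (fun w => tgt_act2_ne H e i hi w)

lemma out_act2_ne (e : Eqn) (i : Fin 3) (hi : i ≠ 0) :
    H.flow.outO O (.act2 e i) = bb (memB O (.tollOut e i (H.act e i))) :=
  card_filter_one O _ _ (fun w => src_act2_ne H e i hi w)

lemma in_pass_0 (e : Eqn) :
    H.flow.inO O (.pass e 0) = bb (memB O (.tollIn e 0 (!H.act e 0))) +
      bb (memB O (.loop e 1 true)) + bb (memB O (.loop e 2 true)) :=
  card_filter_three O _ _ _ _ (by simp) (by simp) (by simp) (fun w => tgt_pass_0 H e w)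

lemma out_pass_0 (e : Eqn) :
    H.flow.outO O (.pass e 0) = bb (memB O (.tollOut e 0 (!H.act e 0))) +
      bb (memB O (.loop e 0 false)) + bb (memB O (.loop e 0 true)) :=
  card_filter_three O _ _ _ _ (by simp) (by simp) (by simp) (fun w => src_pass_0 H e w)

lemma in_pass_ne (e : Eqn) (i : Fin 3) (hi : i ≠ 0) :
    H.flow.inO O (.pass e i) = bb (memB O (.tollIn e i (!H.act e i))) :=
  card_filter_one O _ _ (fun w => tgt_pass_ne H e i hi w)

lemma out_pass_ne (e : Eqn) (i : Fin 3) (hi : i ≠ 0) :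
    H.flow.outO O (.pass e i) = bb (memB O (.tollOut e i (!H.act e i))) :=
  card_filter_one O _ _ (fun w => src_pass_ne H e i hi w)

lemma in_mid0 (e : Eqn) : H.flow.inO O (.mid e 0) = bb (memB O (.loop e 1 false)) :=
  card_filter_one O _ _ (fun w => tgt_mid0 H e w)
lemma out_mid0 (e : Eqn) : H.flow.outO O (.mid e 0) = bb (memB O (.loop e 2 false)) :=
  card_filter_one O _ _ (fun w => src_mid0 H e w)
lemma in_mid1 (e : Eqn) : H.flow.inO O (.mid e 1) = bb (memB O (.loop e 0 false)) :=
  card_filter_one O _ _ (fun w => tgt_mid1 H e w)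
lemma out_mid1 (e : Eqn) : H.flow.outO O (.mid e 1) = bb (memB O (.loop e 2 true)) :=
  card_filter_one O _ _ (fun w => src_mid1 H e w)
lemma in_mid2 (e : Eqn) : H.flow.inO O (.mid e 2) = bb (memB O (.loop e 0 true)) :=
  card_filter_one O _ _ (fun w => tgt_mid2 H e w)
lemma out_mid2 (e : Eqn) : H.flow.outO O (.mid e 2) = bb (memB O (.loop e 1 true)) :=
  card_filter_one O _ _ (fun w => src_mid2 H e w)

lemma pick_eq (f : Bool → Bool) (τ : Bool) : f τ = pick τ (f false) (f true) := by
  cases τ <;> rfl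

lemma act_zero (e : Eqn) : H.act e 0 = H.rhs e := by simp [Hybrid.act]
lemma act_one (e : Eqn) : H.act e 1 = false := by simp [Hybrid.act]
lemma act_two (e : Eqn) : H.act e 2 = false := by simp [Hybrid.act]

/-- Letter imbalance inside the gadget of an equation. -/
def Lsum (e : Eqn) : ℕ :=
  dd (bb (pick (H.rhs e) (memB O (.tollIn e 0 false)) (memB O (.tollIn e 0 true))))
      (bb (memB O (.con e 0))) +
  dd (bb (memB O (.con e 0)) + bb (memB O (.loop e 2 false)))
    (bb (pick (H.rhs e) (memB O (.tollOut e 0 false)) (memB O (.tollOut e 0 true))) +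
      bb (memB O (.loop e 1 false))) +
  dd (bb (pick (!H.rhs e) (memB O (.tollIn e 0 false)) (memB O (.tollIn e 0 true))) +
      bb (memB O (.loop e 1 true)) + bb (memB O (.loop e 2 true)))
    (bb (pick (!H.rhs e) (memB O (.tollOut e 0 false)) (memB O (.tollOut e 0 true))) +
      bb (memB O (.loop e 0 false)) + bb (memB O (.loop e 0 true))) +
  dd (bb (memB O (.loop e 1 false))) (bb (memB O (.loop e 2 false))) +
  dd (bb (memB O (.loop e 0 false))) (bb (memB O (.loop e 2 true))) +
  dd (bb (memB O (.loop e 0 true))) (bb (memB O (.loop e 1 true))) +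
  (dd (bb (memB O (.tollIn e 1 false))) (bb (memB O (.con e 1))) +
    dd (bb (memB O (.con e 1))) (bb (memB O (.tollOut e 1 false))) +
    dd (bb (memB O (.tollIn e 1 true))) (bb (memB O (.tollOut e 1 true)))) +
  (dd (bb (memB O (.tollIn e 2 false))) (bb (memB O (.con e 2))) +
    dd (bb (memB O (.con e 2))) (bb (memB O (.tollOut e 2 false))) +
    dd (bb (memB O (.tollIn e 2 true))) (bb (memB O (.tollOut e 2 true))))

lemma letters_eq (e : Eqn) :
    ∑ i : Fin 3, (Nat.dist (H.flow.inO O (.act1 e i)) (H.flow.outO O (.act1 e i)) +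
      Nat.dist (H.flow.inO O (.act2 e i)) (H.flow.outO O (.act2 e i)) +
      Nat.dist (H.flow.inO O (.pass e i)) (H.flow.outO O (.pass e i)) +
      Nat.dist (H.flow.inO O (.mid e i)) (H.flow.outO O (.mid e i))) = Lsum H O e := by
  rw [Fin.sum_univ_three]
  rw [in_act1, out_act1, in_act2_0, out_act2_0, in_pass_0, out_pass_0, in_mid0, out_mid0]
  rw [in_act1, out_act1, in_act2_ne _ _ _ _ (by decide), out_act2_ne _ _ _ _ (by decide),
    in_pass_ne _ _ _ _ (by decide), out_pass_ne _ _ _ _ (by decide), in_mid1, out_mid1]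
  rw [in_act1, out_act1, in_act2_ne _ _ _ _ (by decide), out_act2_ne _ _ _ _ (by decide),
    in_pass_ne _ _ _ _ (by decide), out_pass_ne _ _ _ _ (by decide), in_mid2, out_mid2]
  rw [act_zero, act_one, act_two]
  have h1 := pick_eq (fun σ => memB O (Word.tollIn e 0 σ)) (H.rhs e)
  have h2 := pick_eq (fun σ => memB O (Word.tollOut e 0 σ)) (H.rhs e)
  have h3 := pick_eq (fun σ => memB O (Word.tollIn e 0 σ)) (!H.rhs e)
  have h4 := pick_eq (fun σ => memB O (Word.tollOut e 0 σ)) (!H.rhs e)
  rw [h1, h2, h3, h4]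
  simp only [Lsum, Nat.dist, dd, Bool.not_false]
  omega

/-- The word count of the gadget of an equation. -/
def Wsum (e : Eqn) : ℕ :=
  ∑ i : Fin 3, (∑ σ, bb (memB O (.tollIn e i σ)) + ∑ σ, bb (memB O (.tollOut e i σ)) +
    bb (memB O (.con e i)) + ∑ j, bb (memB O (.loop e i j)))

lemma eq_local
    (hT1 : ∀ e i, (memB O (.tollIn e i false) || memB O (.tollIn e i true)) = true)
    (hT2 : ∀ e i, (memB O (.tollOut e i false) || memB O (.tollOut e i true)) = true)
    (hE : ∀ e i, (memB O (.con e i) || memB O (.loop e i false) || memB O (.loop e i true)) = true)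
    (e : Eqn) :
    ∑ t0 : Bool, ∑ t1 : Bool, ∑ t2 : Bool, eqCost H (memB O) e t0 t1 t2 + 72 ≤
      4 * (2 * Wsum O e + Lsum H O e) := by
  have := local_eq (H.rhs e)
    (memB O (.tollIn e 0 false)) (memB O (.tollIn e 0 true))
    (memB O (.tollOut e 0 false)) (memB O (.tollOut e 0 true))
    (memB O (.con e 0)) (memB O (.loop e 0 false)) (memB O (.loop e 0 true))
    (memB O (.tollIn e 1 false)) (memB O (.tollIn e 1 true))
    (memB O (.tollOut e 1 false)) (memB O (.tollOut e 1 true))
    (memB O (.con e 1)) (memB O (.loop e 1 false)) (memB O (.loop e 1 true))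
    (memB O (.tollIn e 2 false)) (memB O (.tollIn e 2 true))
    (memB O (.tollOut e 2 false)) (memB O (.tollOut e 2 true))
    (memB O (.con e 2)) (memB O (.loop e 2 false)) (memB O (.loop e 2 true))
    (hT1 e 0) (hT2 e 0) (hT1 e 1) (hT2 e 1) (hT1 e 2) (hT2 e 2) (hE e 0) (hE e 1) (hE e 2)
  simp only [Fintype.sum_bool, dis] at this
  simp only [Fintype.sum_bool, eqCost, Wsum, Lsum, Fin.sum_univ_three, xin, xout, Word.first, Word.last]
  omega

/-- Soundness of the gadget system. -/
theorem sound [Fintype Wheel] [DecidableEq Wheel]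
    (hC : ∀ c σ, (memB O (.chk c false σ) || memB O (.chk c true (!σ))) = true)
    (hT1 : ∀ e i, (memB O (.tollIn e i false) || memB O (.tollIn e i true)) = true)
    (hT2 : ∀ e i, (memB O (.tollOut e i false) || memB O (.tollOut e i true)) = true)
    (hE : ∀ e i, (memB O (.con e i) || memB O (.loop e i false) || memB O (.loop e i true)) = true) :
    ∃ α, 2 * H.unsat α + (4 * Fintype.card Chord + 18 * Fintype.card Eqn) ≤
      2 * O.card + ∑ l, Nat.dist (H.flow.inO O l) (H.flow.outO O l) := by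
  set m := memB O with hm
  set N := 2 ^ Fintype.card Wheel with hN
  set K := 4 * Fintype.card Chord + 18 * Fintype.card Eqn with hK
  -- the right hand side
  set χ : Chord → ℕ := fun c => ∑ side, ∑ σ, bb (m (.chk c side σ)) with hχ
  set D : Node Chord Eqn → ℕ := fun v =>
    ∑ σ, dd (bb (m (Word.last v σ))) (bb (m (Word.first (H.succ v) σ))) with hD
  set R := 2 * O.card + ∑ l, Nat.dist (H.flow.inO O l) (H.flow.outO O l) with hR
  have hRe : R = ∑ v, D v + ∑ c, 2 * χ c + ∑ e, (2 * Wsum O e + Lsum H O e) := by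
    have h1 : O.card = ∑ c, χ c + ∑ e, Wsum O e := by
      rw [card_eq_sum_bb, sum_word]
      rfl
    have h2 : ∑ l, Nat.dist (H.flow.inO O l) (H.flow.outO O l) =
        ∑ v, D v + ∑ e, Lsum H O e := by
      rw [sum_letter (fun l => Nat.dist (H.flow.inO O l) (H.flow.outO O l))]
      congr 1
      · apply sum_congr rfl
        intro v _
        apply sum_congr rfl
        intro σ _
        rw [in_edge, out_edge]
        rfl
      · apply sum_congr rfl
        intro e _
        exact letters_eq H O e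
    rw [hR, h1, h2]
    simp only [sum_add_distrib, ← mul_sum]
    ring
  -- per-part bounds
  have hEv : ∀ v, 2 * ∑ s : Wheel → Bool, edgeCut H m v (s (H.wheel v)) ≤ N * D v := by
    intro v
    rw [avg_one]
    apply Nat.mul_le_mul_left
    have := edge_bits (m (Word.last v false)) (m (Word.last v true))
      (m (Word.first (H.succ v) false)) (m (Word.first (H.succ v) true))
    simp only [hD, Fintype.sum_bool, edgeCut, xin, xout]
    omega
  have hFc : ∀ c, 2 * ∑ s : Wheel → Bool, chordCut m c (s (H.wheel (Sum.inl (c, false)))) + N * 4 ≤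
      N * (2 * χ c) := by
    intro c
    rw [avg_one, ← mul_add]
    apply Nat.mul_le_mul_left
    have := chord_bits (m (.chk c false false)) (m (.chk c false true))
      (m (.chk c true false)) (m (.chk c true true))
      (by simpa using hC c false) (by simpa using hC c true)
    simp only [hχ, Fintype.sum_bool, chordCut, xin, Word.first]
    omega
  have hGe : ∀ e, 2 * ∑ s : Wheel → Bool, eqCost H m e (s (H.wheel (Sum.inr (e, 0))))
      (s (H.wheel (Sum.inr (e, 1)))) (s (H.wheel (Sum.inr (e, 2)))) + N * 18 ≤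
      N * (2 * Wsum O e + Lsum H O e) := by
    intro e
    have h8 := avg_three (H.wheel (Sum.inr (e, 0))) (H.wheel (Sum.inr (e, 1)))
      (H.wheel (Sum.inr (e, 2))) (H.eqn_wheel e 0 1 (by decide)) (H.eqn_wheel e 0 2 (by decide))
      (H.eqn_wheel e 1 2 (by decide)) (eqCost H m e)
    have hl := eq_local H O hT1 hT2 hE e
    have h4 : 4 * (2 * ∑ s : Wheel → Bool, eqCost H m e (s (H.wheel (Sum.inr (e, 0))))
      (s (H.wheel (Sum.inr (e, 1)))) (s (H.wheel (Sum.inr (e, 2)))) + N * 18) ≤
        4 * (N * (2 * Wsum O e + Lsum H O e)) := by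
      have h5 := Nat.mul_le_mul_left N hl
      rw [mul_add] at h5
      calc _ = 8 * ∑ s : Wheel → Bool, eqCost H m e (s (H.wheel (Sum.inr (e, 0))))
            (s (H.wheel (Sum.inr (e, 1)))) (s (H.wheel (Sum.inr (e, 2)))) + N * 72 := by ring
        _ ≤ _ := by rw [h8]; rw [show 4 * (N * (2 * Wsum O e + Lsum H O e)) =
              N * (4 * (2 * Wsum O e + Lsum H O e)) by ring]; exact h5
    exact Nat.le_of_mul_le_mul_left h4 (by norm_num)
  -- sum over assignments
  have hsum : ∑ s : Wheel → Bool, (2 * H.unsat (roundA H m s) + K) ≤ ∑ s : Wheel → Bool, R := by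
    have h1 : ∀ s : Wheel → Bool, 2 * H.unsat (roundA H m s) + K ≤
        2 * (∑ v, edgeCut H m v (s (H.wheel v)) +
      ∑ c, chordCut m c (s (H.wheel (Sum.inl (c, false)))) +
      ∑ e, eqCost H m e (s (H.wheel (Sum.inr (e, 0)))) (s (H.wheel (Sum.inr (e, 1))))
        (s (H.wheel (Sum.inr (e, 2))))) + K := by
      intro s
      have := unsat_le H m s
      omega
    refine (sum_le_sum (fun s _ => h1 s)).trans ?_
    simp only [sum_add_distrib, ← mul_sum, mul_add, sum_const, card_univ, card_assign, smul_eq_mul]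
    simp only [← hN]
    rw [sum_comm (s := (univ : Finset (Wheel → Bool))) (t := (univ : Finset (Node Chord Eqn)))]
    rw [sum_comm (s := (univ : Finset (Wheel → Bool))) (t := (univ : Finset Chord))]
    rw [sum_comm (s := (univ : Finset (Wheel → Bool))) (t := (univ : Finset Eqn))]
    have hA := sum_le_sum (s := (univ : Finset (Node Chord Eqn))) (fun v _ => hEv v)
    have hB := sum_le_sum (s := (univ : Finset Chord)) (fun c _ => hFc c)
    have hC' := sum_le_sum (s := (univ : Finset Eqn)) (fun e _ => hGe e)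
    simp only [sum_add_distrib, ← mul_sum, sum_const, card_univ, smul_eq_mul] at hA hB hC'
    rw [hRe]
    simp only [hK, sum_add_distrib, mul_add, ← mul_sum] at hB hC' ⊢
    nlinarith [hA, hB, hC']
  obtain ⟨s, _, hs⟩ := exists_le_of_sum_le (s := (univ : Finset (Wheel → Bool))) univ_nonempty hsum
  exact ⟨roundA H m s, hs⟩

end main

end Vale.Agent.P333
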