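import Vale.Agent.P333.Fib
import Vale.Agent.P333.Local

namespace Vale.Agent.P333

open Finset

variable {Chord Eqn Wheel : Type}

/-- Words as a sum type. -/
def wordEquiv : Word Chord Eqn ≃ (Chord × Bool × Bool) ⊕ (Eqn × Fin 3 × Bool) ⊕ (Eqn × Fin 3 × Bool) ⊕
    (Eqn × Fin 3) ⊕ (Eqn × Fin 3 × Bool) where
  toFun
    | .chk c s σ => .inl (c, s, σ)
    | .tollIn e i σ => .inr (.inl (e, i, σ))
    | .tollOut e i σ => .inr (.inr (.inl (e, i, σ)))
    | .con e i => .inr (.inr (.inr (.inl (e, i))))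
    | .loop e i j => .inr (.inr (.inr (.inr (e, i, j))))
  invFun
    | .inl (c, s, σ) => .chk c s σ
    | .inr (.inl (e, i, σ)) => .tollIn e i σ
    | .inr (.inr (.inl (e, i, σ))) => .tollOut e i σ
    | .inr (.inr (.inr (.inl (e, i)))) => .con e i
    | .inr (.inr (.inr (.inr (e, i, j)))) => .loop e i j
  left_inv := by intro w; cases w <;> rfl
  right_inv := by
    rintro (⟨c, s, σ⟩ | ⟨e, i, σ⟩ | ⟨e, i, σ⟩ | ⟨e, i⟩ | ⟨e, i, j⟩) <;> rfl

/-- Letters as a sum type. -/
def letterEquiv : Letter Chord Eqn ≃ (Node Chord Eqn × Bool) ⊕ (Eqn × Fin 3) ⊕ (Eqn × Fin 3) ⊕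
    (Eqn × Fin 3) ⊕ (Eqn × Fin 3) where
  toFun
    | .edge v σ => .inl (v, σ)
    | .act1 e i => .inr (.inl (e, i))
    | .act2 e i => .inr (.inr (.inl (e, i)))
    | .pass e i => .inr (.inr (.inr (.inl (e, i))))
    | .mid e i => .inr (.inr (.inr (.inr (e, i))))
  invFun
    | .inl (v, σ) => .edge v σ
    | .inr (.inl (e, i)) => .act1 e i
    | .inr (.inr (.inl (e, i))) => .act2 e i
    | .inr (.inr (.inr (.inl (e, i)))) => .pass e i
    | .inr (.inr (.inr (.inr (e, i)))) => .mid e i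
  left_inv := by intro w; cases w <;> rfl
  right_inv := by
    rintro (⟨v, σ⟩ | ⟨e, i⟩ | ⟨e, i⟩ | ⟨e, i⟩ | ⟨e, i⟩) <;> rfl

variable [Fintype Chord] [Fintype Eqn]

noncomputable instance instFintypeWord : Fintype (Word Chord Eqn) :=
  Fintype.ofEquiv _ wordEquiv.symm

noncomputable instance instFintypeLetter : Fintype (Letter Chord Eqn) :=
  Fintype.ofEquiv _ letterEquiv.symm

lemma sum_word (f : Word Chord Eqn → ℕ) :
    ∑ w, f w = ∑ c, ∑ side, ∑ σ, f (.chk c side σ) +
      ∑ e, ∑ i, (∑ σ, f (.tollIn e i σ) + ∑ σ, f (.tollOut e i σ) + f (.con e i) +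
        ∑ j, f (.loop e i j)) := by
  rw [← Equiv.sum_comp (wordEquiv (Chord := Chord) (Eqn := Eqn)).symm f]
  simp only [Fintype.sum_sum_type, Fintype.sum_prod_type, sum_add_distrib]
  simp only [wordEquiv, Equiv.coe_fn_symm_mk]
  ring

lemma sum_letter (f : Letter Chord Eqn → ℕ) :
    ∑ l, f l = ∑ v, ∑ σ, f (.edge v σ) +
      ∑ e, ∑ i, (f (.act1 e i) + f (.act2 e i) + f (.pass e i) + f (.mid e i)) := by
  rw [← Equiv.sum_comp (letterEquiv (Chord := Chord) (Eqn := Eqn)).symm f]
  simp only [Fintype.sum_sum_type, Fintype.sum_prod_type (f := fun x : Node Chord Eqn × Bool => _),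
    Fintype.sum_prod_type (f := fun x : Eqn × Fin 3 => _), sum_add_distrib]
  simp only [letterEquiv, Equiv.coe_fn_symm_mk]
  ring

lemma card_word : Fintype.card (Word Chord Eqn) =
    4 * Fintype.card Chord + 21 * Fintype.card Eqn := by
  rw [Fintype.card_congr wordEquiv]
  simp
  ring

section counts

variable {W : Type} [DecidableEq W]

/-- Membership bit. -/
def memB (O : Finset W) (w : W) : Bool := decide (w ∈ O)

lemma card_filter_one (O : Finset W) (P : W → Prop) [DecidablePred P] (a : W)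
    (h : ∀ w, P w ↔ w = a) : (O.filter P).card = bb (memB O a) := by
  have : O.filter P = (({a} : Finset W).filter (· ∈ O)) := by
    ext w; simp [h]; tauto
  rw [this]
  by_cases ha : a ∈ O <;> simp [memB, ha, bb, filter_singleton]

lemma card_filter_two (O : Finset W) (P : W → Prop) [DecidablePred P] (a b : W) (hab : a ≠ b)
    (h : ∀ w, P w ↔ w = a ∨ w = b) : (O.filter P).card = bb (memB O a) + bb (memB O b) := by
  have : O.filter P = (({a, b} : Finset W).filter (· ∈ O)) := by
    ext w; simp [h]; tauto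
  rw [this, card_filter, sum_pair hab]
  by_cases ha : a ∈ O <;> by_cases hb : b ∈ O <;> simp [memB, ha, hb, bb]

lemma card_filter_three (O : Finset W) (P : W → Prop) [DecidablePred P] (a b c : W)
    (hab : a ≠ b) (hac : a ≠ c) (hbc : b ≠ c)
    (h : ∀ w, P w ↔ w = a ∨ w = b ∨ w = c) :
    (O.filter P).card = bb (memB O a) + bb (memB O b) + bb (memB O c) := by
  have : O.filter P = (({a, b, c} : Finset W).filter (· ∈ O)) := by
    ext w; simp [h]; tauto
  rw [this, card_filter, sum_insert (by simp [hab, hac]), sum_pair hbc]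
  by_cases ha : a ∈ O <;> by_cases hb : b ∈ O <;> by_cases hc : c ∈ O <;> simp [memB, ha, hb, hc, bb]

lemma card_eq_sum_bb [Fintype W] (O : Finset W) : O.card = ∑ w, bb (memB O w) := by
  have : ∀ w, bb (memB O w) = if w ∈ O then 1 else 0 := by
    intro w; by_cases h : w ∈ O <;> simp [memB, h, bb]
  simp only [this]
  rw [sum_ite_mem]
  simp

end counts

end Vale.Agent.P333
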