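import Vale.Agent.P333.Defs
import Vale.Agent.P333.Flow

namespace Vale.Agent.P333

open Finset

variable {Chord Eqn Wheel : Type} [DecidableEq Eqn]

/-- Inverse of `Word.next`. -/
def Word.prev : Word Chord Eqn → Word Chord Eqn
  | .chk c side σ => .chk c (!side) (!σ)
  | .tollIn e i σ => .tollIn e i (!σ)
  | .tollOut e i σ => .tollOut e i (!σ)
  | .con e i => .loop e i true
  | .loop e i true => .loop e i false
  | .loop e i false => .con e i

omit [DecidableEq Eqn] in
lemma Word.prev_next (w : Word Chord Eqn) : w.next.prev = w := by
  cases w with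
  | chk c side σ => simp [Word.next, Word.prev]
  | tollIn e i σ => simp [Word.next, Word.prev]
  | tollOut e i σ => simp [Word.next, Word.prev]
  | con e i => simp [Word.next, Word.prev]
  | loop e i j => cases j <;> simp [Word.next, Word.prev]

omit [DecidableEq Eqn] in
lemma Word.next_prev (w : Word Chord Eqn) : w.prev.next = w := by
  cases w with
  | chk c side σ => simp [Word.next, Word.prev]
  | tollIn e i σ => simp [Word.next, Word.prev]
  | tollOut e i σ => simp [Word.next, Word.prev]
  | con e i => simp [Word.next, Word.prev]
  | loop e i j => cases j <;> simp [Word.next, Word.prev]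

/-- `Word.next` as a permutation. -/
def nextPerm : Equiv.Perm (Word Chord Eqn) :=
  ⟨Word.next, Word.prev, Word.prev_next, Word.next_prev⟩

lemma fin3_cases (i : Fin 3) : i = 0 ∨ i = 1 ∨ i = 2 := by
  fin_cases i <;> simp

lemma Hybrid.flow_inj (H : Hybrid Chord Eqn Wheel) (a b : Word Chord Eqn)
    (h1 : H.src a = H.src b) (h2 : H.tgt a = H.tgt b) : a = b := by
  cases a with
  | chk c side σ =>
    cases b with
    | chk c' side' σ' => simpa [Hybrid.tgt, and_assoc] using h2
    | tollIn e i σ' => simp only [Hybrid.src, Hybrid.tgt] at h1 h2; split_ifs at h2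
    | tollOut e i σ' => simp [Hybrid.tgt] at h2
    | con e i => simp [Hybrid.tgt] at h2
    | loop e i j =>
      simp only [Hybrid.tgt] at h2
      rcases fin3_cases i with rfl | rfl | rfl <;> cases j <;> simp at h2
  | tollIn e i σ =>
    cases b with
    | chk c' side' σ' => simp only [Hybrid.src, Hybrid.tgt] at h1 h2; split_ifs at h2
    | tollIn e' i' σ' =>
      simp only [Hybrid.src, Hybrid.tgt] at h1 h2
      simp only [Letter.edge.injEq] at h1
      obtain ⟨h3, rfl⟩ := h1
      have := H.succ.symm.injective h3
      simp only [Sum.inr.injEq, Prod.mk.injEq] at this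
      obtain ⟨rfl, rfl⟩ := this
      rfl
    | tollOut e' i' σ' =>
      simp only [Hybrid.src] at h1
      split_ifs at h1
    | con e' i' => simp [Hybrid.src] at h1
    | loop e' i' j' =>
      simp only [Hybrid.src] at h1
      rcases fin3_cases i' with rfl | rfl | rfl <;> cases j' <;> simp at h1
  | tollOut e i σ =>
    cases b with
    | chk c' side' σ' => simp [Hybrid.tgt] at h2
    | tollIn e' i' σ' =>
      simp only [Hybrid.src] at h1
      split_ifs at h1
    | tollOut e' i' σ' => simpa [Hybrid.tgt, and_assoc] using h2
    | con e' i' => simp [Hybrid.tgt] at h2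
    | loop e' i' j' =>
      simp only [Hybrid.tgt] at h2
      rcases fin3_cases i' with rfl | rfl | rfl <;> cases j' <;> simp at h2
  | con e i =>
    cases b with
    | chk c' side' σ' => simp [Hybrid.tgt] at h2
    | tollIn e' i' σ' => simp [Hybrid.src] at h1
    | tollOut e' i' σ' => simp [Hybrid.tgt] at h2
    | con e' i' => simpa [Hybrid.src] using h1
    | loop e' i' j' =>
      simp only [Hybrid.src] at h1
      rcases fin3_cases i' with rfl | rfl | rfl <;> cases j' <;> simp at h1
  | loop e i j =>
    cases b with
    | chk c' side' σ' =>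
      simp only [Hybrid.tgt] at h2
      rcases fin3_cases i with rfl | rfl | rfl <;> cases j <;> simp at h2
    | tollIn e' i' σ' =>
      simp only [Hybrid.src] at h1
      rcases fin3_cases i with rfl | rfl | rfl <;> cases j <;> simp at h1
    | tollOut e' i' σ' =>
      simp only [Hybrid.tgt] at h2
      rcases fin3_cases i with rfl | rfl | rfl <;> cases j <;> simp at h2
    | con e' i' =>
      simp only [Hybrid.src] at h1
      rcases fin3_cases i with rfl | rfl | rfl <;> cases j <;> simp at h1
    | loop e' i' j' =>
      simp only [Hybrid.src, Hybrid.tgt] at h1 h2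
      rcases fin3_cases i with rfl | rfl | rfl <;> cases j <;>
        rcases fin3_cases i' with rfl | rfl | rfl <;> cases j' <;> simp_all

lemma Hybrid.flow_no3 (H : Hybrid Chord Eqn Wheel) (a b : Word Chord Eqn)
    (h1 : H.src b = H.tgt a) (h2 : H.tgt b = H.src a.next) :
    H.src b.next ≠ H.tgt a.next := by
  intro h3
  cases a with
  | chk c side σ =>
    cases b with
    | chk c' side' σ' =>
      simp only [Hybrid.src, Hybrid.tgt, Word.next, Letter.edge.injEq] at h1 h2
      have := h1.2; have := h2.2; simp_all
    | tollIn e i σ' =>
      simp only [Hybrid.src, Hybrid.tgt, Word.next] at h1 h2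
      split_ifs at h2
    | tollOut e i σ' =>
      simp only [Hybrid.src, Hybrid.tgt, Word.next] at h1 h2
      split_ifs at h1
    | con e i => simp [Hybrid.src, Hybrid.tgt] at h1
    | loop e i j =>
      simp only [Hybrid.src, Hybrid.tgt] at h1
      rcases fin3_cases i with rfl | rfl | rfl <;> cases j <;> simp at h1
  | tollIn e i σ =>
    cases b with
    | chk c' side' σ' =>
      simp only [Hybrid.src, Hybrid.tgt, Word.next] at h1 h2
      split_ifs at h1
    | tollIn e' i' σ' =>
      simp only [Hybrid.src, Hybrid.tgt, Word.next] at h1 h2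
      split_ifs at h1
    | tollOut e' i' σ' =>
      simp only [Hybrid.src, Hybrid.tgt, Word.next, Letter.edge.injEq] at h1 h2
      have h4 := h2.2
      subst h4
      split_ifs at h1 with h5 h6 h6
      · simp only [Letter.pass.injEq] at h1
        obtain ⟨rfl, rfl⟩ := h1
        cases σ <;> simp_all
    | con e' i' =>
      simp [Hybrid.src, Hybrid.tgt, Word.next] at h2
    | loop e' i' j' =>
      simp only [Hybrid.src, Hybrid.tgt, Word.next] at h2
      rcases fin3_cases i' with rfl | rfl | rfl <;> cases j' <;> simp at h2
  | tollOut e i σ =>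
    cases b with
    | chk c' side' σ' =>
      simp only [Hybrid.src, Hybrid.tgt, Word.next] at h1 h2
      split_ifs at h2
    | tollIn e' i' σ' =>
      simp only [Hybrid.src, Hybrid.tgt, Word.next, Letter.edge.injEq] at h1 h2
      have h4 := h1.2
      subst h4
      split_ifs at h2 with h5 h6 h6
      · simp only [Letter.pass.injEq] at h2
        obtain ⟨rfl, rfl⟩ := h2
        cases σ' <;> simp_all
    | tollOut e' i' σ' =>
      simp only [Hybrid.src, Hybrid.tgt, Word.next] at h1 h2
      split_ifs at h1
    | con e' i' => simp [Hybrid.src, Hybrid.tgt] at h1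
    | loop e' i' j' =>
      simp only [Hybrid.src, Hybrid.tgt] at h1
      rcases fin3_cases i' with rfl | rfl | rfl <;> cases j' <;> simp at h1
  | con e i =>
    cases b with
    | chk c' side' σ' => simp [Hybrid.src, Hybrid.tgt] at h1
    | tollIn e' i' σ' => simp [Hybrid.src, Hybrid.tgt] at h1
    | tollOut e' i' σ' =>
      simp only [Hybrid.src, Hybrid.tgt, Word.next] at h1 h2
      rcases fin3_cases i with rfl | rfl | rfl <;> simp at h2
    | con e' i' => simp [Hybrid.src, Hybrid.tgt] at h1
    | loop e' i' j' =>
      simp only [Hybrid.src, Hybrid.tgt, Word.next] at h1 h2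
      rcases fin3_cases i with rfl | rfl | rfl <;>
        rcases fin3_cases i' with rfl | rfl | rfl <;> cases j' <;> simp_all
  | loop e i j =>
    cases j with
    | false =>
      cases b with
      | chk c' side' σ' =>
        simp only [Hybrid.src, Hybrid.tgt, Word.next] at h1 h2
        rcases fin3_cases i with rfl | rfl | rfl <;> simp at h1
      | tollIn e' i' σ' =>
        simp only [Hybrid.src, Hybrid.tgt, Word.next] at h1 h2
        rcases fin3_cases i with rfl | rfl | rfl <;> simp at h1
      | tollOut e' i' σ' =>
        simp only [Hybrid.src, Hybrid.tgt, Word.next] at h1 h2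
        rcases fin3_cases i with rfl | rfl | rfl <;> simp at h2
      | con e' i' =>
        simp only [Hybrid.src, Hybrid.tgt, Word.next] at h1 h2
        rcases fin3_cases i with rfl | rfl | rfl <;> simp at h1 h2
      | loop e' i' j' =>
        simp only [Hybrid.src, Hybrid.tgt, Word.next] at h1 h2 h3
        rcases fin3_cases i with rfl | rfl | rfl <;>
          rcases fin3_cases i' with rfl | rfl | rfl <;> cases j' <;> simp_all
    | true =>
      cases b with
      | chk c' side' σ' =>
        simp only [Hybrid.src, Hybrid.tgt, Word.next] at h1 h2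
        rcases fin3_cases i with rfl | rfl | rfl <;> simp at h1
      | tollIn e' i' σ' =>
        simp only [Hybrid.src, Hybrid.tgt, Word.next] at h1 h2
        rcases fin3_cases i with rfl | rfl | rfl <;> simp at h1
      | tollOut e' i' σ' =>
        simp only [Hybrid.src, Hybrid.tgt, Word.next] at h1 h2
        simp at h2
      | con e' i' =>
        simp only [Hybrid.src, Hybrid.tgt, Word.next] at h1 h2
        rcases fin3_cases i with rfl | rfl | rfl <;> simp at h1 h2
      | loop e' i' j' =>
        simp only [Hybrid.src, Hybrid.tgt, Word.next] at h1 h2 h3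
        rcases fin3_cases i with rfl | rfl | rfl <;>
          rcases fin3_cases i' with rfl | rfl | rfl <;> cases j' <;> simp_all

/-- The flow system of a Hybrid instance. -/
def Hybrid.flow (H : Hybrid Chord Eqn Wheel) : FlowSys (Word Chord Eqn) (Letter Chord Eqn) where
  src := H.src
  tgt := H.tgt
  next := nextPerm
  inj := H.flow_inj
  no3 := H.flow_no3

end Vale.Agent.P333
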